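import Crest.Agent.R322.Region

/-! One block of samples multiplies the growth constant by a bounded factor. -/

set_option autoImplicit false

namespace Crest.Agent.R322

open MeasureTheory Metric Set ProbabilityTheory Filter Topology
open scoped ENNReal RealInnerProductSpace

variable {V : Type*} [NormedAddCommGroup V] [InnerProductSpace ℝ V] [FiniteDimensional ℝ V]
  [MeasurableSpace V] [BorelSpace V]

lemma block {S : Type*} [MeasurableSpace S] [MeasurableSingletonClass S]
    (σ : Measure V) [IsFiniteMeasure σ] {k b : ℕ} (hb : b ≤ k) (F : Finset S) {D : ℝ≥0∞}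
    (hD0 : D ≠ 0) (hDt : D ≠ ∞) (hF : (F.card : ℝ≥0∞) ≤ D ^ k)
    (u : S → V → ℝ≥0∞) (hu : ∀ q, Measurable (u q)) (hu1 : ∀ q s, u q s ≤ 1) {κ : ℝ≥0∞}
    (hκ0 : κ ≠ 0) (hκt : κ ≠ ∞) (hfr : ∀ q, Frost (σ.withDensity (u q)) κ (2 * k + 1))
    (φ : (Fin b → V) × (Fin b → ℝ) → S) (hφ : Measurable φ) (hφF : ∀ p, φ p ∈ F) :
    Frost (σ.withDensity fun s => ∫⁻ X, u (φ (X, obs X s)) s ∂(gam V b))
      (κ * (1 + D * 2 ^ (8 * k + 3 + Module.finrank ℝ V))) (2 * k + 1) := by
  classical
  intro c ρ hρ
  obtain ⟨G, hGm, hG, hGμ⟩ := region (V := V) b c hρ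
  set r := ENNReal.ofReal ρ with hr
  have hr0 : r ≠ 0 := by simpa [hr] using hρ
  have hrt : r ≠ ∞ := ENNReal.ofReal_ne_top
  set θ : ℝ≥0∞ := 2 ^ (5 * k + 3) * κ * r ^ (2 * k + 1 - b) with hθ
  have hθ0 : θ ≠ 0 := by positivity
  have hθt : θ ≠ ∞ := by finiteness
  let E : S → Set ((Fin b → V) × (Fin b → ℝ)) := fun q => φ ⁻¹' {q} ∩ G
  have hE : ∀ q, MeasurableSet (E q) := fun q => (hφ (measurableSet_singleton q)).inter hGm
  have hI : ∀ q, Measurable ((E q).indicator (1 : (Fin b → V) × (Fin b → ℝ) → ℝ≥0∞)) :=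
    fun q => measurable_one.indicator (hE q)
  have hI2 : ∀ q, Measurable fun s : V =>
      ∫⁻ X, (E q).indicator (1 : (Fin b → V) × (Fin b → ℝ) → ℝ≥0∞) (X, obs X s) ∂(gam V b) := by
    intro q
    have : Measurable fun p : V × (Fin b → V) =>
        (E q).indicator (1 : (Fin b → V) × (Fin b → ℝ) → ℝ≥0∞) (p.2, obs p.2 p.1) :=
      (hI q).comp (by fun_prop)
    exact this.lintegral_prod_right'
  let m : S → Measure V := fun q => (σ.withDensity (u q)).restrict (ball c ρ)
  have hfin : ∀ q, IsFiniteMeasure (σ.withDensity (u q)) := fun q =>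
    isFiniteMeasure_withDensity (ne_top_of_le_ne_top (by simp)
      (lintegral_mono (g := fun _ => 1) (hu1 q)))
  rw [withDensity_apply _ measurableSet_ball]
  calc _ = ∫⁻ s in ball c ρ, ∑ q ∈ F, u q s *
          ∫⁻ X, (E q).indicator (1 : (Fin b → V) × (Fin b → ℝ) → ℝ≥0∞) (X, obs X s)
            ∂(gam V b) ∂σ := by
        refine setLIntegral_congr_fun measurableSet_ball fun s hs => ?_
        have h1 : ∀ q, Measurable fun X : Fin b → V =>
            (E q).indicator (1 : (Fin b → V) × (Fin b → ℝ) → ℝ≥0∞) (X, obs X s) :=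
          fun q => (hI q).comp (by fun_prop)
        simp_rw [← lintegral_const_mul _ (h1 _)]
        rw [← lintegral_finsetSum _ fun q _ => (h1 q).const_mul _]
        refine lintegral_congr fun X => ?_
        rw [Finset.sum_eq_single_of_mem _ (hφF (X, obs X s))]
        · rw [indicator_of_mem (show (X, obs X s) ∈ E _ from ⟨rfl, hG X s hs⟩)]; simp
        · intro q _ hq
          rw [indicator_of_notMem (fun h => hq (Eq.symm h.1)), mul_zero]
    _ = ∑ q ∈ F, nu (m q) b (E q) := by
        rw [lintegral_finsetSum _ fun q _ => (hu q).fun_mul (hI2 q)]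
        refine Finset.sum_congr rfl fun q _ => ?_
        rw [← lintegral_indicator_one (hE q), lintegral_nu _ _ (hI q),
          setLIntegral_withDensity_eq_setLIntegral_mul _ (hu q) (hI2 q) measurableSet_ball]
        rfl
    _ ≤ ∑ q ∈ F, ((θ * D) * refM V b (E q) + (D ^ k)⁻¹ * (κ * r ^ (2 * k + 1))) := by
        refine Finset.sum_le_sum fun q _ => ?_
        have := hfin q
        have h1 := nu_le (m q) (b := b) (k := k) (θ := θ) (β := θ * D) (by positivity)
          (by finiteness) ?_ (hE q)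
        · refine h1.trans (add_le_add_right ?_ _)
          rw [mul_pow, ENNReal.mul_inv (Or.inl (by positivity)) (Or.inl (by finiteness))]
          calc (θ ^ k)⁻¹ * (D ^ k)⁻¹ * (θ ^ k * m q univ)
              = ((θ ^ k)⁻¹ * θ ^ k) * ((D ^ k)⁻¹ * m q univ) := by ring
            _ = (D ^ k)⁻¹ * m q univ := by
                rw [ENNReal.inv_mul_cancel (by positivity) (by finiteness), one_mul]
            _ ≤ _ := by
                gcongr
                rw [Measure.restrict_apply_univ]
                exact hfr q c ρ hρ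
        · filter_upwards [ae_restrict_mem measurableSet_ball] with s₀ hs₀ W hW
          exact theta_le _ (hfr q) W hW hb c s₀ hρ hs₀
    _ = (θ * D) * (∑ q ∈ F, refM V b (E q)) + (F.card * (D ^ k)⁻¹) * (κ * r ^ (2 * k + 1)) := by
        rw [Finset.sum_add_distrib, Finset.mul_sum, Finset.sum_const, nsmul_eq_mul, mul_assoc _ _ (κ * _)]
    _ ≤ (θ * D) * (2 ^ Module.finrank ℝ V * (8 * r) ^ b) + 1 * (κ * r ^ (2 * k + 1)) := by
        gcongr
        · refine le_trans ?_ hGμ
          rw [← measure_biUnion_finset (fun q _ q' _ hq => ?_) fun q _ => hE q]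
          · exact measure_mono (iUnion₂_subset fun q _ => inter_subset_right)
          · refine Set.disjoint_left.2 fun p h1 h2 => hq ?_
            exact (Eq.symm h1.1).trans h2.1
        · calc (F.card : ℝ≥0∞) * (D ^ k)⁻¹ ≤ D ^ k * (D ^ k)⁻¹ := by gcongr
            _ = 1 := ENNReal.mul_inv_cancel (by positivity) (by finiteness)
    _ ≤ _ := by
        have e1 : r ^ (2 * k + 1) = r ^ (2 * k + 1 - b) * r ^ b := by
          rw [← pow_add]; congr 1; omega
        have e2 : (8 : ℝ≥0∞) ^ b ≤ 2 ^ (3 * k) := by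
          rw [pow_mul]
          have : (2 : ℝ≥0∞) ^ 3 = 8 := by norm_num
          rw [this]
          exact pow_le_pow_right₀ (by norm_num) hb
        calc _ = κ * (1 + D * (2 ^ (5 * k + 3) * 8 ^ b * 2 ^ Module.finrank ℝ V)) *
              r ^ (2 * k + 1) := by rw [hθ, mul_pow, e1]; ring
          _ ≤ κ * (1 + D * (2 ^ (5 * k + 3) * 2 ^ (3 * k) * 2 ^ Module.finrank ℝ V)) *
              r ^ (2 * k + 1) := by gcongr
          _ = _ := by
              congr 4
              rw [← pow_add, ← pow_add]; congr 1; ring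

end Crest.Agent.R322
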