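import Crest.Agent.R322.Gauss

/-! The law of (samples, measurements) against Gaussian times Lebesgue measure. -/

set_option autoImplicit false

namespace Crest.Agent.R322

open MeasureTheory Metric Set ProbabilityTheory Filter Topology
open scoped ENNReal RealInnerProductSpace

variable {V : Type*} [NormedAddCommGroup V] [InnerProductSpace ℝ V] [FiniteDimensional ℝ V]
  [MeasurableSpace V] [BorelSpace V]

/-- the measurements -/
noncomputable def obs {b : ℕ} (X : Fin b → V) (s : V) : Fin b → ℝ := fun a => ⟪X a, s⟫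

omit [FiniteDimensional ℝ V] [MeasurableSpace V] [BorelSpace V] in
lemma continuous_obs {b : ℕ} : Continuous fun p : (Fin b → V) × V => obs p.1 p.2 := by
  unfold obs; fun_prop

@[fun_prop]
lemma measurable_obs {b : ℕ} {α : Type*} [MeasurableSpace α] {f : α → Fin b → V} {g : α → V}
    (hf : Measurable f) (hg : Measurable g) : Measurable fun x => obs (f x) (g x) :=
  continuous_obs.measurable.comp (hf.prodMk hg)

variable (V) in
/-- law of the samples -/
noncomputable abbrev gam (b : ℕ) : Measure (Fin b → V) := Measure.pi fun _ => stdGaussian V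

variable (V) in
/-- the reference measure -/
noncomputable abbrev refM (b : ℕ) : Measure ((Fin b → V) × (Fin b → ℝ)) := (gam V b).prod volume

/-- box kernel -/
noncomputable def kb {b : ℕ} (τ : ℝ) (η : Fin b → ℝ) : ℝ≥0∞ := ∏ a, k1 τ (η a)

@[fun_prop]
lemma measurable_kb {b : ℕ} (τ : ℝ) {α : Type*} [MeasurableSpace α] {f : α → Fin b → ℝ}
    (hf : Measurable f) : Measurable fun x => kb τ (f x) := by
  have := measurable_k1 τ
  unfold kb; fun_prop

lemma lintegral_kb {b : ℕ} {τ : ℝ} (hτ : 0 < τ) : ∫⁻ η : Fin b → ℝ, kb τ η = 1 := by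
  unfold kb
  rw [volume_pi, lintegral_pi_prod volume (fun _ => k1 τ) (fun _ => measurable_k1 τ)]
  simp [lintegral_k1 hτ]

lemma norm_le_of_kb {b : ℕ} {τ : ℝ} (hτ : 0 < τ) {η : Fin b → ℝ} (h : kb τ η ≠ 0) : ‖η‖ ≤ τ := by
  rw [pi_norm_le_iff_of_nonneg hτ.le]
  intro a
  have := Finset.prod_ne_zero_iff.1 h a (Finset.mem_univ a)
  have h2 : η a ∈ ball (0 : ℝ) τ := by
    by_contra h3
    exact this (indicator_of_notMem h3 _)
  exact (mem_ball_zero_iff.1 h2).le

/-- smoothed density -/
noncomputable def dens {b : ℕ} (m : Measure V) (τ : ℝ) (p : (Fin b → V) × (Fin b → ℝ)) : ℝ≥0∞ :=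
  ∫⁻ s, kb τ (p.2 - obs p.1 s) ∂m

lemma measurable_dens {b : ℕ} (m : Measure V) [SFinite m] (τ : ℝ) :
    Measurable (dens (b := b) m τ) := by
  have : Measurable fun q : ((Fin b → V) × (Fin b → ℝ)) × V => kb τ (q.1.2 - obs q.1.1 q.2) := by
    fun_prop
  exact this.lintegral_prod_right'

lemma dens_moment (m : Measure V) [SFinite m] {b k : ℕ} {τ : ℝ} (hτ : 0 < τ) {θ : ℝ≥0∞}
    (hθ : ∀ᵐ s₀ ∂m, ∀ W : Submodule ℝ V, Module.finrank ℝ W ≤ k →
      ∫⁻ s, (ENNReal.ofReal (dW W (s - s₀)))⁻¹ ^ b ∂m ≤ θ) :
    ∫⁻ p, dens m τ p ^ (k + 1) ∂(refM V b) ≤ θ ^ k * m univ := by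
  have hd := measurable_dens (b := b) m τ
  calc _ = ∫⁻ p, ∫⁻ s₀, kb τ (p.2 - obs p.1 s₀) * dens m τ p ^ k ∂m ∂(refM V b) := by
        refine lintegral_congr fun p => ?_
        rw [lintegral_mul_const _ (by fun_prop), pow_succ']
        rfl
    _ = ∫⁻ s₀, ∫⁻ p, kb τ (p.2 - obs p.1 s₀) * dens m τ p ^ k ∂(refM V b) ∂m := by
        refine lintegral_lintegral_swap (Measurable.aemeasurable ?_)
        exact Measurable.mul (by fun_prop) ((hd.comp measurable_fst).pow_const k)
    _ ≤ ∫⁻ _, θ ^ k ∂m := by
        refine lintegral_mono_ae ?_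
        filter_upwards [hθ] with s₀ hs₀
        rw [lintegral_prod _ (by fun_prop)]
        calc _ = ∫⁻ X, ∫⁻ η, kb τ η * dens m τ (X, η + obs X s₀) ^ k ∂volume ∂(gam V b) := by
              refine lintegral_congr fun X => ?_
              rw [← lintegral_add_right_eq_self _ (obs X s₀)]
              simp
          _ = ∫⁻ η, ∫⁻ X, kb τ η * dens m τ (X, η + obs X s₀) ^ k ∂(gam V b) ∂volume := by
              refine lintegral_lintegral_swap (Measurable.aemeasurable ?_)
              exact Measurable.mul (by fun_prop) ((hd.comp (by fun_prop)).pow_const k)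
          _ ≤ ∫⁻ η, kb τ η * θ ^ k ∂volume := by
              refine lintegral_mono fun η => ?_
              rw [lintegral_const_mul _ (by fun_prop)]
              refine mul_le_mul_right ?_ _
              have := moment m s₀ η hτ hs₀ k ⊥ (by simp) (fun _ _ => 1) (fun _ => measurable_const)
                (fun _ _ _ _ => rfl)
              simp only [Finset.prod_const_one, one_mul, lintegral_const, measure_univ,
                mul_one] at this
              refine le_trans (le_of_eq (lintegral_congr fun X => ?_)) this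
              congr 1
              refine lintegral_congr fun s => Finset.prod_congr rfl fun a _ => ?_
              congr 1
              simp only [obs, Pi.sub_apply, Pi.add_apply, inner_sub_right]
              ring
          _ = θ ^ k := by rw [lintegral_mul_const _ (by fun_prop), lintegral_kb hτ, one_mul]
    _ = _ := lintegral_const _

/-- law of samples and measurements when the signal has law `m` -/
noncomputable def nu (m : Measure V) (b : ℕ) : Measure ((Fin b → V) × (Fin b → ℝ)) :=
  (m.prod (gam V b)).map fun q => (q.2, obs q.2 q.1)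

instance (m : Measure V) [IsFiniteMeasure m] (b : ℕ) : IsFiniteMeasure (nu m b) := by
  unfold nu; infer_instance

lemma lintegral_nu (m : Measure V) [SFinite m] (b : ℕ) {f : (Fin b → V) × (Fin b → ℝ) → ℝ≥0∞}
    (hf : Measurable f) :
    ∫⁻ p, f p ∂(nu m b) = ∫⁻ s, ∫⁻ X, f (X, obs X s) ∂(gam V b) ∂m := by
  rw [nu, lintegral_map hf (by fun_prop), lintegral_prod _ (by fun_prop)]

lemma nu_le_thick (m : Measure V) [SFinite m] {b : ℕ} {τ : ℝ} (hτ : 0 < τ)
    {K : Set ((Fin b → V) × (Fin b → ℝ))} (hK : MeasurableSet K) :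
    nu m b K ≤ ∫⁻ p in cthickening τ K, dens m τ p ∂(refM V b) := by
  have hT : MeasurableSet (cthickening τ K) := isClosed_cthickening.measurableSet
  have hI : Measurable ((cthickening τ K).indicator (1 : (Fin b → V) × (Fin b → ℝ) → ℝ≥0∞)) := measurable_one.indicator hT
  rw [← lintegral_indicator_one hK, lintegral_nu m b (measurable_one.indicator hK),
    ← lintegral_indicator hT]
  calc _ ≤ ∫⁻ s, ∫⁻ X, ∫⁻ y, (cthickening τ K).indicator 1 (X, y) * kb τ (y - obs X s)
          ∂volume ∂(gam V b) ∂m := by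
        refine lintegral_mono fun s => lintegral_mono fun X => ?_
        by_cases h : (X, obs X s) ∈ K
        · rw [indicator_of_mem h, Pi.one_apply, ← lintegral_kb (b := b) hτ,
            ← lintegral_sub_right_eq_self _ (obs X s)]
          refine lintegral_mono fun y => ?_
          by_cases h0 : kb τ (y - obs X s) = 0
          · simp [h0]
          · have : (X, y) ∈ cthickening τ K := by
              refine mem_cthickening_of_dist_le _ _ τ K h ?_
              rw [Prod.dist_eq, dist_self, dist_eq_norm]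
              exact max_le hτ.le (norm_le_of_kb hτ h0)
            simp [indicator_of_mem this]
        · rw [indicator_of_notMem h]; exact zero_le
    _ = ∫⁻ s, ∫⁻ p, (cthickening τ K).indicator 1 p * kb τ (p.2 - obs p.1 s)
          ∂(refM V b) ∂m := by
        refine lintegral_congr fun s => ?_
        rw [lintegral_prod _ (by fun_prop)]
    _ = ∫⁻ p, ∫⁻ s, (cthickening τ K).indicator 1 p * kb τ (p.2 - obs p.1 s) ∂m
          ∂(refM V b) := by
        refine lintegral_lintegral_swap (Measurable.aemeasurable ?_)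
        exact Measurable.mul (hI.comp measurable_snd) (by fun_prop)
    _ = _ := by
        refine lintegral_congr fun p => ?_
        rw [lintegral_const_mul _ (by fun_prop)]
        by_cases h : p ∈ cthickening τ K
        · simp [indicator_of_mem h, dens]
        · simp [indicator_of_notMem h]

lemma le_add_pow_div (p β : ℝ≥0∞) (h0 : β ≠ 0) (ht : β ≠ ∞) (k : ℕ) :
    p ≤ β + (β ^ k)⁻¹ * p ^ (k + 1) := by
  rcases le_total p β with h | h
  · exact h.trans le_self_add
  · refine le_trans ?_ le_add_self
    calc p = (β ^ k)⁻¹ * (β ^ k * p) := by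
          rw [← mul_assoc, ENNReal.inv_mul_cancel (pow_ne_zero _ h0) (ENNReal.pow_ne_top ht),
            one_mul]
      _ ≤ _ := by rw [pow_succ]; gcongr

lemma nu_le (m : Measure V) [IsFiniteMeasure m] {b k : ℕ} {θ β : ℝ≥0∞} (h0 : β ≠ 0) (ht : β ≠ ∞)
    (hθ : ∀ᵐ s₀ ∂m, ∀ W : Submodule ℝ V, Module.finrank ℝ W ≤ k →
      ∫⁻ s, (ENNReal.ofReal (dW W (s - s₀)))⁻¹ ^ b ∂m ≤ θ)
    {E : Set ((Fin b → V) × (Fin b → ℝ))} (hE : MeasurableSet E) :
    nu m b E ≤ β * refM V b E + (β ^ k)⁻¹ * (θ ^ k * m univ) := by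
  rw [hE.measure_eq_iSup_isCompact]
  refine iSup_le fun K => iSup_le fun hKE => iSup_le fun hK => ?_
  refine le_trans ?_ (add_le_add_left (mul_le_mul_right (measure_mono hKE) β) _)
  have hlim : Tendsto (fun τ : ℝ => β * refM V b (cthickening τ K) + (β ^ k)⁻¹ * (θ ^ k * m univ))
      (𝓝[>] 0) (𝓝 (β * refM V b K + (β ^ k)⁻¹ * (θ ^ k * m univ))) :=
    ((ENNReal.Tendsto.const_mul (tendsto_measure_cthickening_of_isCompact hK)
      (Or.inr ht)).add_const _).mono_left nhdsWithin_le_nhds
  refine ge_of_tendsto hlim ?_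
  filter_upwards [self_mem_nhdsWithin] with τ hτ
  have hd := measurable_dens (b := b) m τ
  refine (nu_le_thick m hτ hK.measurableSet).trans ?_
  calc _ ≤ ∫⁻ p in cthickening τ K, (β + (β ^ k)⁻¹ * dens m τ p ^ (k + 1)) ∂(refM V b) :=
        lintegral_mono fun p => le_add_pow_div _ β h0 ht k
    _ = β * refM V b (cthickening τ K) +
          (β ^ k)⁻¹ * ∫⁻ p in cthickening τ K, dens m τ p ^ (k + 1) ∂(refM V b) := by
        rw [lintegral_add_left measurable_const, setLIntegral_const,
          lintegral_const_mul _ (hd.pow_const _)]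
    _ ≤ _ := by
        gcongr
        exact (setLIntegral_le_lintegral _ _).trans (dens_moment m hτ hθ)

end Crest.Agent.R322
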