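import Mathlib

/-! Frostman-type growth bounds for measures, tubes around flats, and the inverse-distance integral. -/

set_option autoImplicit false

namespace Crest.Agent.R322

open MeasureTheory Metric Set
open scoped ENNReal

variable {V : Type*} [NormedAddCommGroup V] [InnerProductSpace ℝ V] [FiniteDimensional ℝ V]
  [MeasurableSpace V] [BorelSpace V]

/-- balls of radius `t` have mass at most `κ t^α`. -/
def Frost (lam : Measure V) (κ : ℝ≥0∞) (α : ℕ) : Prop :=
  ∀ (x : V) (t : ℝ), 0 < t → lam (ball x t) ≤ κ * ENNReal.ofReal t ^ α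

/-- distance to the subspace `W`. -/
noncomputable def dW (W : Submodule ℝ V) (v : V) : ℝ := ‖v - W.starProjection v‖

omit [MeasurableSpace V] [BorelSpace V] in
lemma continuous_dW (W : Submodule ℝ V) : Continuous (dW W) := by
  unfold dW; fun_prop

omit [MeasurableSpace V] [BorelSpace V] in
lemma dW_nonneg (W : Submodule ℝ V) (v : V) : 0 ≤ dW W v := norm_nonneg _

omit [MeasurableSpace V] [BorelSpace V] in
lemma dW_le (W : Submodule ℝ V) (v w : V) (hw : w ∈ W) : dW W v ≤ ‖v - w‖ := by
  unfold dW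
  rw [Submodule.starProjection_minimal]
  exact ciInf_le ⟨0, by rintro _ ⟨x, rfl⟩; exact norm_nonneg _⟩ (⟨w, hw⟩ : W)

omit [MeasurableSpace V] [BorelSpace V] in
lemma dW_le_norm (W : Submodule ℝ V) (v : V) : dW W v ≤ ‖v‖ := by
  simpa using dW_le W v 0 W.zero_mem

omit [MeasurableSpace V] [BorelSpace V] in
lemma dW_smul (W : Submodule ℝ V) (c : ℝ) (v : V) : dW W (c • v) = |c| * dW W v := by
  unfold dW
  rw [map_smul, ← smul_sub, norm_smul, Real.norm_eq_abs]

lemma measurableSet_tube (W : Submodule ℝ V) (s₀ : V) (R t : ℝ) :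
    MeasurableSet {s | ‖s - s₀‖ ≤ R ∧ dW W (s - s₀) ≤ t} := by
  refine IsClosed.measurableSet (IsClosed.inter ?_ ?_)
  · exact isClosed_le (f := fun s : V => ‖s - s₀‖) (by fun_prop) continuous_const
  · exact isClosed_le (f := fun s : V => dW W (s - s₀)) ((continuous_dW W).comp (by fun_prop))
      continuous_const

/-- averaging lemma -/
lemma tube_le (lam : Measure V) [SFinite lam] {κ : ℝ≥0∞} {α : ℕ} (h : Frost lam κ α)
    (W : Submodule ℝ V) {l : ℕ} (hl : Module.finrank ℝ W ≤ l) (s₀ : V) {R t : ℝ} (hR : 0 ≤ R)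
    (ht : 0 < t) :
    lam {s | ‖s - s₀‖ ≤ R ∧ dW W (s - s₀) ≤ t} ≤
      ENNReal.ofReal ((R + t) / t) ^ l * (κ * ENNReal.ofReal (2 * t) ^ α) := by
  set S := {s | ‖s - s₀‖ ≤ R ∧ dW W (s - s₀) ≤ t} with hS
  have hSm : MeasurableSet S := by
    exact measurableSet_tube W s₀ R t
  let ν : Measure W := Measure.addHaar
  set A : Set (V × W) := {p | ‖p.1 - (s₀ + (p.2 : V))‖ < 2 * t ∧ ‖p.2‖ < R + t} with hA
  have hAm : MeasurableSet A := by
    refine IsOpen.measurableSet (IsOpen.inter ?_ ?_)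
    · exact isOpen_lt (f := fun p : V × W => ‖p.1 - (s₀ + (p.2 : V))‖) (by fun_prop) continuous_const
    · exact isOpen_lt (f := fun p : V × W => ‖p.2‖) (by fun_prop) continuous_const
  have h1 : lam S * ν (ball 0 t) ≤ (lam.prod ν) A := by
    rw [Measure.prod_apply hAm, mul_comm, ← lintegral_indicator_const hSm]
    refine lintegral_mono fun s => ?_
    by_cases hs : s ∈ S
    · rw [indicator_of_mem hs]
      let w₀ : W := W.orthogonalProjectionOnto (s - s₀)
      rw [← Measure.addHaar_ball_center ν w₀ t]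
      refine measure_mono fun w hw => ?_
      rw [mem_ball, dist_eq_norm] at hw
      have hw0 : ‖w₀‖ ≤ R := (W.norm_orthogonalProjectionOnto_apply_le (s - s₀)).trans hs.1
      refine ⟨?_, ?_⟩
      · have e : s - (s₀ + (w : V)) = (s - s₀ - W.starProjection (s - s₀)) - ((w - w₀ : W) : V) := by
          simp only [w₀, Submodule.starProjection_apply, Submodule.coe_sub]; abel
        show ‖s - (s₀ + (w : V))‖ < 2 * t
        rw [e]
        have h2 : ‖s - s₀ - W.starProjection (s - s₀)‖ ≤ t := hs.2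
        have h3 : ‖((w - w₀ : W) : V)‖ < t := hw
        linarith [norm_sub_le (s - s₀ - W.starProjection (s - s₀)) ((w - w₀ : W) : V)]
      · show ‖w‖ < R + t
        have : w = (w - w₀) + w₀ := by abel
        rw [this]
        linarith [norm_add_le (w - w₀) w₀]
    · rw [indicator_of_notMem hs]; exact zero_le
  have h2 : (lam.prod ν) A ≤ ν (ball 0 (R + t)) * (κ * ENNReal.ofReal (2 * t) ^ α) := by
    rw [Measure.prod_apply_symm hAm, mul_comm, ← lintegral_indicator_const measurableSet_ball]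
    refine lintegral_mono fun w => ?_
    by_cases hw : w ∈ ball (0 : W) (R + t)
    · rw [indicator_of_mem hw]
      refine le_trans (measure_mono fun s hs => ?_) (h (s₀ + w) (2 * t) (by positivity))
      rw [mem_ball, dist_eq_norm]; exact hs.1
    · rw [indicator_of_notMem hw]
      have : (fun x => (x, w)) ⁻¹' A = ∅ := by
        ext s
        simp only [mem_preimage, mem_empty_iff_false, iff_false]
        intro hs
        exact hw (by simpa using hs.2)
      rw [this, measure_empty]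
  have hq : 1 ≤ (R + t) / t := by rw [le_div_iff₀ ht]; linarith
  have h3 : ν (ball 0 (R + t)) ≤ ENNReal.ofReal ((R + t) / t) ^ l * ν (ball 0 t) := by
    have e : R + t = (R + t) / t * t := by field_simp
    conv_lhs => rw [e]
    rw [Measure.addHaar_ball_mul_of_pos ν 0 (by positivity) t, ← ENNReal.ofReal_pow (by positivity)]
    gcongr
  have hν0 : ν (ball 0 t) ≠ 0 := (measure_ball_pos ν 0 ht).ne'
  have hνt : ν (ball 0 t) ≠ ∞ := measure_ball_lt_top.ne
  have h4 := h1.trans (h2.trans (mul_le_mul_left h3 _))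
  rw [mul_right_comm] at h4
  exact (ENNReal.mul_le_mul_iff_left hν0 hνt).1 h4

lemma inv_pow_le_tsum {δ R : ℝ} (hδ : 0 ≤ δ) (hR : 0 < R) (hδR : δ ≤ R) (b : ℕ) :
    (ENNReal.ofReal δ)⁻¹ ^ b ≤
      ∑' n : ℕ, (if δ ≤ R / 2 ^ n then ENNReal.ofReal (2 ^ (n + 1) / R) ^ b else 0) := by
  rcases hδ.eq_or_lt with rfl | hδ
  · rcases Nat.eq_zero_or_pos b with rfl | hb
    · refine le_trans ?_ (ENNReal.le_tsum 0)
      simp [hR.le]
    · have : ∑' _ : ℕ, ENNReal.ofReal (1 / R) ^ b = ∞ :=
        ENNReal.tsum_const_eq_top_of_ne_zero (pow_ne_zero _ (by simpa using hR))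
      refine le_trans le_top (le_trans this.ge (ENNReal.tsum_le_tsum fun n => ?_))
      rw [if_pos (by positivity)]
      gcongr
      exact one_le_pow₀ (by norm_num)
  · have h1 : δ / R ≤ 1 := by rwa [div_le_one hR]
    obtain ⟨n, hn1, hn2⟩ := exists_nat_pow_near_of_lt_one (div_pos hδ hR) h1
      (by norm_num : (0 : ℝ) < 1 / 2) (by norm_num)
    refine le_trans ?_ (ENNReal.le_tsum n)
    have e1 : δ ≤ R / 2 ^ n := by
      rw [div_le_iff₀ hR, one_div, inv_pow] at hn2
      rw [div_eq_inv_mul]; exact hn2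
    rw [if_pos e1, ← ENNReal.ofReal_inv_of_pos hδ]
    gcongr
    rw [lt_div_iff₀ hR, one_div, inv_pow] at hn1
    rw [inv_le_comm₀ hδ (by positivity), inv_div, div_eq_inv_mul]
    exact hn1.le

/-- the inverse-distance integral -/
lemma theta_le (lam : Measure V) [SFinite lam] {κ : ℝ≥0∞} {k : ℕ} (h : Frost lam κ (2 * k + 1))
    (W : Submodule ℝ V) (hl : Module.finrank ℝ W ≤ k) {b : ℕ} (hb : b ≤ k) (c s₀ : V) {ρ : ℝ}
    (hρ : 0 < ρ) (hs₀ : s₀ ∈ ball c ρ) :
    ∫⁻ s in ball c ρ, (ENNReal.ofReal (dW W (s - s₀)))⁻¹ ^ b ∂lam ≤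
      2 ^ (5 * k + 3) * κ * ENNReal.ofReal ρ ^ (2 * k + 1 - b) := by
  set R := 2 * ρ with hR
  have hR0 : 0 < R := by positivity
  let S : ℕ → Set V := fun n => {s | ‖s - s₀‖ ≤ R ∧ dW W (s - s₀) ≤ R / 2 ^ n}
  have hSm : ∀ n, MeasurableSet (S n) := fun n => measurableSet_tube W s₀ R _
  calc ∫⁻ s in ball c ρ, (ENNReal.ofReal (dW W (s - s₀)))⁻¹ ^ b ∂lam
      ≤ ∫⁻ s in ball c ρ, ∑' n : ℕ,
          (S n).indicator (fun _ => ENNReal.ofReal (2 ^ (n + 1) / R) ^ b) s ∂lam := by
        refine setLIntegral_mono' measurableSet_ball fun s hs => ?_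
        have hs1 : ‖s - s₀‖ ≤ R := by
          rw [mem_ball, dist_eq_norm] at hs hs₀
          have : s - s₀ = (s - c) - (s₀ - c) := by abel
          rw [this]
          linarith [norm_sub_le (s - c) (s₀ - c)]
        refine (inv_pow_le_tsum (dW_nonneg W _) hR0 ((dW_le_norm W _).trans hs1) b).trans
          (le_of_eq (tsum_congr fun n => ?_))
        simp only [S, indicator, mem_ofPred_eq, hs1, true_and]
    _ ≤ ∫⁻ s, ∑' n : ℕ,
          (S n).indicator (fun _ => ENNReal.ofReal (2 ^ (n + 1) / R) ^ b) s ∂lam :=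
        setLIntegral_le_lintegral _ _
    _ = ∑' n : ℕ, ENNReal.ofReal (2 ^ (n + 1) / R) ^ b * lam (S n) := by
        rw [lintegral_tsum fun n => (measurable_const.indicator (hSm n)).aemeasurable]
        simp_rw [lintegral_indicator_const (hSm _)]
    _ ≤ ∑' n : ℕ, (2 ^ (5 * k + 2) * κ * ENNReal.ofReal ρ ^ (2 * k + 1 - b)) * 2⁻¹ ^ n := by
        refine ENNReal.tsum_le_tsum fun n => ?_
        refine (mul_le_mul_right (tube_le lam h W hl s₀ hR0.le (by positivity)) _).trans ?_
        have key : (2 ^ (n + 1) / R) ^ b * ((R + R / 2 ^ n) / (R / 2 ^ n)) ^ k *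
            (2 * (R / 2 ^ n)) ^ (2 * k + 1) ≤
            2 ^ (5 * k + 2) * ρ ^ (2 * k + 1 - b) * (2⁻¹) ^ n := by
          have e1 : (2 : ℝ) ^ (n + 1) / R = 2 ^ n / ρ := by rw [hR]; field_simp; ring
          have e2 : (R + R / 2 ^ n) / (R / 2 ^ n) ≤ 2 * 2 ^ n := by
            have : (R + R / 2 ^ n) / (R / 2 ^ n) = 2 ^ n + 1 := by field_simp
            rw [this]
            linarith [one_le_pow₀ (M₀ := ℝ) (a := 2) (by norm_num) (n := n)]
          have e3 : 2 * (R / 2 ^ n) = 4 * ρ / 2 ^ n := by rw [hR]; ring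
          obtain ⟨r, hr⟩ : ∃ r, k = b + r := ⟨k - b, by omega⟩
          have e4 : 2 * k + 1 - b = b + 2 * r + 1 := by omega
          rw [e1, e3, e4]
          set u : ℝ := 2 ^ n with hu
          have hu1 : 1 ≤ u := one_le_pow₀ (by norm_num)
          have hu0 : 0 < u := by positivity
          calc (u / ρ) ^ b * ((R + R / u) / (R / u)) ^ k * (4 * ρ / u) ^ (2 * k + 1)
              ≤ (u / ρ) ^ b * (2 * u) ^ k * (4 * ρ / u) ^ (2 * k + 1) := by gcongr
            _ = (2 ^ (5 * k + 2) * ρ ^ (b + 2 * r + 1) * u⁻¹) * (u ^ r)⁻¹ := by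
                subst hr
                have : (4 : ℝ) = 2 ^ 2 := by norm_num
                rw [this]
                simp only [div_pow, mul_pow, ← pow_mul]
                field_simp
                ring
            _ ≤ (2 ^ (5 * k + 2) * ρ ^ (b + 2 * r + 1) * u⁻¹) * 1 := by
                gcongr
                exact inv_le_one_of_one_le₀ (one_le_pow₀ hu1)
            _ = _ := by rw [mul_one, inv_pow]
        have key2 := ENNReal.ofReal_le_ofReal key
        rw [ENNReal.ofReal_mul (by positivity), ENNReal.ofReal_mul (by positivity),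
          ENNReal.ofReal_mul (by positivity), ENNReal.ofReal_mul (by positivity),
          ENNReal.ofReal_pow (by positivity), ENNReal.ofReal_pow (by positivity),
          ENNReal.ofReal_pow (by positivity), ENNReal.ofReal_pow (by positivity),
          ENNReal.ofReal_pow (by positivity), ENNReal.ofReal_pow (by positivity),
          ENNReal.ofReal_inv_of_pos (by norm_num), ENNReal.ofReal_ofNat] at key2
        calc _ = κ * (ENNReal.ofReal (2 ^ (n + 1) / R) ^ b *
              ENNReal.ofReal ((R + R / 2 ^ n) / (R / 2 ^ n)) ^ k *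
              ENNReal.ofReal (2 * (R / 2 ^ n)) ^ (2 * k + 1)) := by ring
          _ ≤ κ * (2 ^ (5 * k + 2) * ENNReal.ofReal ρ ^ (2 * k + 1 - b) * 2⁻¹ ^ n) := by gcongr
          _ = _ := by ring
    _ = _ := by
        rw [ENNReal.tsum_mul_left, ENNReal.tsum_geometric, ENNReal.one_sub_inv_two, inv_inv]
        ring

end Crest.Agent.R322
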