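import Crest.Agent.R322.Frost

/-! Gaussian resampling and the moment bound. -/

set_option autoImplicit false

namespace Crest.Agent.R322

open MeasureTheory Metric Set ProbabilityTheory
open scoped ENNReal RealInnerProductSpace

lemma lintegral_pi_prod {n : ℕ} {α : Type*} [MeasurableSpace α] (μ : Measure α) [SigmaFinite μ]
    (f : Fin n → α → ℝ≥0∞) (hf : ∀ i, Measurable (f i)) :
    ∫⁻ x : Fin n → α, ∏ i, f i (x i) ∂(Measure.pi fun _ => μ) = ∏ i, ∫⁻ x, f i x ∂μ := by
  induction n with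
  | zero => simp
  | succ n ih =>
    calc _ = ∫⁻ x : α × (Fin n → α), f 0 x.1 * ∏ i : Fin n, f (Fin.succ i) (x.2 i)
            ∂(μ.prod (Measure.pi (fun _ ↦ μ))) := by
          rw [← ((measurePreserving_piFinSuccAbove (fun _ : Fin (n + 1) => μ) 0).symm).lintegral_comp_emb
            (MeasurableEquiv.measurableEmbedding _)]
          simp_rw [MeasurableEquiv.piFinSuccAbove_symm_apply, Fin.insertNthEquiv,
            Fin.prod_univ_succ, Fin.insertNth_zero, Equiv.coe_fn_mk, Fin.cons_succ,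
            cast_eq, Fin.cons_zero]
      _ = (∫⁻ x, f 0 x ∂μ) * ∏ i : Fin n, ∫⁻ x, f (Fin.succ i) x ∂μ := by
          rw [← ih _ (fun i => hf _)]
          exact lintegral_prod_mul (f := f 0)
            (g := fun x : Fin n → α => ∏ i : Fin n, f (Fin.succ i) (x i)) (hf 0).aemeasurable
            (Finset.measurable_prod _ fun i _ => (hf _).comp (measurable_pi_apply i)).aemeasurable
      _ = _ := by rw [Fin.prod_univ_succ]

variable {V : Type*} [NormedAddCommGroup V] [InnerProductSpace ℝ V] [FiniteDimensional ℝ V]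
  [MeasurableSpace V] [BorelSpace V]

lemma resample (e : V) (he : ‖e‖ = 1) :
    ((stdGaussian V).prod (gaussianReal 0 1)).map
      (fun p : V × ℝ => p.1 + (p.2 - ⟪p.1, e⟫) • e) = stdGaussian V := by
  apply Measure.ext_of_charFun
  ext t
  rw [charFun_apply, integral_map (Measurable.aemeasurable (by fun_prop))
    (Measurable.aestronglyMeasurable (by fun_prop))]
  have h1 : ∀ p : V × ℝ, Complex.exp ((⟪p.1 + (p.2 - ⟪p.1, e⟫) • e, t⟫ : ℝ) * Complex.I) =
      Complex.exp ((⟪p.1, t - ⟪e, t⟫ • e⟫ : ℝ) * Complex.I) *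
        Complex.exp ((⟪e, t⟫ : ℝ) * p.2 * Complex.I) := by
    intro p
    rw [← Complex.exp_add, ← add_mul]
    congr 2
    rw [inner_add_left, real_inner_smul_left, inner_sub_right, real_inner_smul_right]
    push_cast
    ring
  simp_rw [h1]
  rw [integral_prod_mul (f := fun x : V => Complex.exp ((⟪x, t - ⟪e, t⟫ • e⟫ : ℝ) * Complex.I))
    (g := fun y : ℝ => Complex.exp ((⟪e, t⟫ : ℝ) * y * Complex.I)), ← charFun_apply,
    ← charFun_apply_real, charFun_stdGaussian, charFun_stdGaussian, charFun_gaussianReal,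
    ← Complex.exp_add]
  congr 1
  have h2 : ‖t - ⟪e, t⟫ • e‖ ^ 2 = ‖t‖ ^ 2 - ⟪e, t⟫ ^ 2 := by
    rw [norm_sub_sq_real, real_inner_smul_right, norm_smul, he, real_inner_comm, Real.norm_eq_abs,
      mul_one, sq_abs]
    ring
  have h3 : ((‖t - ⟪e, t⟫ • e‖ : ℂ)) ^ 2 = (‖t‖ : ℂ) ^ 2 - ((⟪e, t⟫ : ℝ) : ℂ) ^ 2 := by
    exact_mod_cast h2
  rw [h3]
  push_cast
  ring

lemma gaussianReal_le_volume (s : Set ℝ) : gaussianReal 0 1 s ≤ volume s := by
  rw [gaussianReal_apply 0 one_ne_zero]
  calc ∫⁻ x in s, gaussianPDF 0 1 x ≤ ∫⁻ _ in s, 1 := by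
        refine lintegral_mono fun x => ?_
        rw [gaussianPDF, ← ENNReal.ofReal_one]
        refine ENNReal.ofReal_le_ofReal ?_
        rw [gaussianPDFReal]
        have h1 : (√(2 * Real.pi * ((1 : NNReal) : ℝ)))⁻¹ ≤ 1 := by
          apply inv_le_one_of_one_le₀
          rw [Real.one_le_sqrt]
          simp only [NNReal.coe_one, mul_one]
          linarith [Real.pi_gt_three]
        have h2 : Real.exp (-(x - 0) ^ 2 / (2 * ((1 : NNReal) : ℝ))) ≤ 1 := by
          rw [Real.exp_le_one_iff]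
          simp only [NNReal.coe_one, mul_one]
          nlinarith [sq_nonneg (x - 0)]
        calc _ ≤ 1 * 1 := mul_le_mul h1 h2 (Real.exp_pos _).le zero_le_one
          _ = 1 := mul_one _
    _ = volume s := by simp

/-- the one-dimensional box kernel -/
noncomputable def k1 (τ : ℝ) (r : ℝ) : ℝ≥0∞ :=
  (ball (0 : ℝ) τ).indicator (fun _ => (ENNReal.ofReal (2 * τ))⁻¹) r

lemma measurable_k1 (τ : ℝ) : Measurable (k1 τ) := measurable_const.indicator measurableSet_ball

lemma k1_le (τ r : ℝ) : k1 τ r ≤ (ENNReal.ofReal (2 * τ))⁻¹ := indicator_le_self _ _ _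

lemma lintegral_k1 {τ : ℝ} (hτ : 0 < τ) : ∫⁻ r, k1 τ r = 1 := by
  unfold k1
  rw [lintegral_indicator_const measurableSet_ball, Real.volume_ball,
    ENNReal.inv_mul_cancel (by simpa using hτ) ENNReal.ofReal_ne_top]

lemma lintegral_k1_gauss {τ : ℝ} (hτ : 0 < τ) (c : ℝ) {δ : ℝ} (hδ : 0 < δ) :
    ∫⁻ g, k1 τ (c - g * δ) ∂(gaussianReal 0 1) ≤ (ENNReal.ofReal δ)⁻¹ := by
  have h1 : ∀ g : ℝ, k1 τ (c - g * δ) =
      (ball (c / δ) (τ / δ)).indicator (fun _ => (ENNReal.ofReal (2 * τ))⁻¹) g := by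
    intro g
    unfold k1
    have : c - g * δ ∈ ball (0 : ℝ) τ ↔ g ∈ ball (c / δ) (τ / δ) := by
      rw [mem_ball, mem_ball, Real.dist_eq, Real.dist_eq, sub_zero, lt_div_iff₀ hδ]
      have : c - g * δ = -((g - c / δ) * δ) := by field_simp; ring
      rw [this, abs_neg, abs_mul, abs_of_pos hδ]
    by_cases h : g ∈ ball (c / δ) (τ / δ)
    · rw [indicator_of_mem h, indicator_of_mem (this.2 h)]
    · rw [indicator_of_notMem h, indicator_of_notMem (fun h' => h (this.1 h'))]
  simp_rw [h1]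
  rw [lintegral_indicator_const measurableSet_ball]
  refine (mul_le_mul_right (gaussianReal_le_volume _) _).trans (le_of_eq ?_)
  rw [Real.volume_ball, ← ENNReal.ofReal_inv_of_pos (by positivity),
    ← ENNReal.ofReal_inv_of_pos hδ, ← ENNReal.ofReal_mul (by positivity)]
  congr 1
  field_simp

/-- `h` depends only on the inner products with vectors of `W`. -/
def DepOn (W : Submodule ℝ V) (h : V → ℝ≥0∞) : Prop :=
  ∀ x x' : V, (∀ w ∈ W, ⟪x, w⟫ = ⟪x', w⟫) → h x = h x'

lemma row_le (W : Submodule ℝ V) (h : V → ℝ≥0∞) (hm : Measurable h) (hd : DepOn W h) (v : V)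
    {τ : ℝ} (hτ : 0 < τ) (η : ℝ) :
    ∫⁻ x, h x * k1 τ (η - ⟪x, v⟫) ∂(stdGaussian V) ≤
      (ENNReal.ofReal (dW W v))⁻¹ * ∫⁻ x, h x ∂(stdGaussian V) := by
  rcases (dW_nonneg W v).eq_or_lt with h0 | hδ
  · rw [← h0]
    by_cases hI : ∫⁻ x, h x ∂(stdGaussian V) = 0
    · calc _ ≤ ∫⁻ x, h x * (ENNReal.ofReal (2 * τ))⁻¹ ∂(stdGaussian V) :=
            lintegral_mono fun x => mul_le_mul_right (k1_le _ _) _
        _ = 0 := by rw [lintegral_mul_const _ hm, hI, zero_mul]
        _ ≤ _ := zero_le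
    · simp [ENNReal.top_mul hI]
  · set δ := dW W v with hδdef
    set u : V := v - W.starProjection v with hu
    have hun : ‖u‖ = δ := rfl
    set e : V := δ⁻¹ • u with he
    have he1 : ‖e‖ = 1 := by
      rw [he, norm_smul, hun, Real.norm_eq_abs, abs_of_pos (inv_pos.2 hδ), inv_mul_cancel₀ hδ.ne']
    have huW : ∀ w ∈ W, ⟪u, w⟫ = 0 := fun w hw => W.starProjection_inner_eq_zero v w hw
    have heW : ∀ w ∈ W, ⟪e, w⟫ = 0 := fun w hw => by
      rw [he, real_inner_smul_left, huW w hw, mul_zero]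
    have hev : ⟪e, v⟫ = δ := by
      have : v = u + W.starProjection v := by rw [hu]; abel
      rw [this, inner_add_right, heW _ (W.starProjection_apply_mem v), he, real_inner_smul_left,
        real_inner_self_eq_norm_sq, hun]
      field_simp
      ring
    have hk := measurable_k1 τ
    conv_lhs => rw [← resample e he1]
    rw [lintegral_map (by fun_prop) (by fun_prop), lintegral_prod _ (by fun_prop),
      ← lintegral_const_mul _ hm]
    refine lintegral_mono fun x => ?_
    have h1 : ∀ g : ℝ, h (x + (g - ⟪x, e⟫) • e) = h x := fun g =>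
      hd _ _ fun w hw => by rw [inner_add_left, real_inner_smul_left, heW w hw, mul_zero, add_zero]
    have h2 : ∀ g : ℝ, η - ⟪x + (g - ⟪x, e⟫) • e, v⟫ = (η - ⟪x, v⟫ + ⟪x, e⟫ * δ) - g * δ := by
      intro g
      rw [inner_add_left, real_inner_smul_left, hev]; ring
    simp only [h1, h2]
    rw [lintegral_const_mul _ (by fun_prop), mul_comm]
    exact mul_le_mul_left (lintegral_k1_gauss hτ _ hδ) _

lemma second_moment (g : V) {ρ : ℝ} :
    ∫⁻ x, ENNReal.ofReal (ρ ^ 2 + ⟪x, g⟫ ^ 2) ∂(stdGaussian V) =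
      ENNReal.ofReal (ρ ^ 2 + ‖g‖ ^ 2) := by
  let L : StrongDual ℝ V := innerSL ℝ g
  have hL : ∀ x, ⟪x, g⟫ = L x := fun x => by simp [L, real_inner_comm]
  have hmem : MemLp L 2 (stdGaussian V) := IsGaussian.memLp_dual _ L 2 (by simp)
  have hvar := variance_dual_stdGaussian L
  rw [variance_eq_sub hmem, integral_strongDual_stdGaussian] at hvar
  have hint : Integrable (fun x => L x ^ 2) (stdGaussian V) := hmem.integrable_sq
  simp_rw [hL]
  have hint2 : Integrable (fun x => ρ ^ 2 + L x ^ 2) (stdGaussian V) :=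
    (integrable_const _).add hint
  rw [← ofReal_integral_eq_lintegral_ofReal hint2
    (ae_of_all _ fun x => by positivity), integral_add (integrable_const _) hint]
  congr 1
  have : ‖L‖ = ‖g‖ := innerSL_apply_norm ℝ g
  rw [← this, ← hvar]
  simp

/-- the moment bound -/
lemma moment (m : Measure V) [SFinite m] (s₀ : V) {b k : ℕ} (η : Fin b → ℝ) {τ : ℝ} (hτ : 0 < τ)
    {θ : ℝ≥0∞}
    (hθ : ∀ W : Submodule ℝ V, Module.finrank ℝ W ≤ k →
      ∫⁻ s, (ENNReal.ofReal (dW W (s - s₀)))⁻¹ ^ b ∂m ≤ θ) (i : ℕ) :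
    ∀ W : Submodule ℝ V, Module.finrank ℝ W + i ≤ k → ∀ h : Fin b → V → ℝ≥0∞,
      (∀ a, Measurable (h a)) → (∀ a, DepOn W (h a)) →
      ∫⁻ X : Fin b → V, (∏ a, h a (X a)) * (∫⁻ s, ∏ a, k1 τ (η a - ⟪X a, s - s₀⟫) ∂m) ^ i
          ∂(Measure.pi fun _ => stdGaussian V) ≤
        θ ^ i * ∏ a, ∫⁻ x, h a x ∂(stdGaussian V) := by
  have hk := measurable_k1 τ
  have hK : Measurable fun p : (Fin b → V) × V => ∏ a, k1 τ (η a - ⟪p.1 a, p.2 - s₀⟫) := by
    fun_prop
  have hP : Measurable fun X : Fin b → V => ∫⁻ s, ∏ a, k1 τ (η a - ⟪X a, s - s₀⟫) ∂m :=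
    hK.lintegral_prod_right'
  induction i with
  | zero =>
    intro W _ h hm _
    simp only [pow_zero, mul_one, one_mul]
    exact (lintegral_pi_prod _ h hm).le
  | succ i ih =>
    intro W hW h hm hd
    have hH : Measurable fun X : Fin b → V => ∏ a, h a (X a) := by fun_prop
    calc _ = ∫⁻ X : Fin b → V, ∫⁻ s, (∏ a, (h a (X a) * k1 τ (η a - ⟪X a, s - s₀⟫))) *
            (∫⁻ s, ∏ a, k1 τ (η a - ⟪X a, s - s₀⟫) ∂m) ^ i ∂m
          ∂(Measure.pi fun _ => stdGaussian V) := by
          refine lintegral_congr fun X => ?_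
          simp_rw [Finset.prod_mul_distrib]
          rw [lintegral_mul_const _ (by fun_prop), lintegral_const_mul _ (by fun_prop)]
          ring
      _ = ∫⁻ s, ∫⁻ X : Fin b → V, (∏ a, (h a (X a) * k1 τ (η a - ⟪X a, s - s₀⟫))) *
            (∫⁻ s, ∏ a, k1 τ (η a - ⟪X a, s - s₀⟫) ∂m) ^ i
          ∂(Measure.pi fun _ => stdGaussian V) ∂m := by
          refine lintegral_lintegral_swap (Measurable.aemeasurable ?_)
          exact Measurable.mul (by fun_prop) ((hP.comp measurable_fst).pow_const i)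
      _ ≤ ∫⁻ s, θ ^ i * ((ENNReal.ofReal (dW W (s - s₀)))⁻¹ ^ b *
            ∏ a, ∫⁻ x, h a x ∂(stdGaussian V)) ∂m := by
          refine lintegral_mono fun s => ?_
          have hW' : Module.finrank ℝ (W ⊔ Submodule.span ℝ {s - s₀} : Submodule ℝ V) + i ≤ k := by
            have h1 := Submodule.finrank_add_le_finrank_add_finrank W (Submodule.span ℝ {s - s₀})
            have h2 : Module.finrank ℝ (Submodule.span ℝ ({s - s₀} : Set V)) ≤ 1 := by
              simpa using finrank_span_le_card (R := ℝ) ({s - s₀} : Set V)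
            omega
          refine (ih _ hW' (fun a x => h a x * k1 τ (η a - ⟪x, s - s₀⟫)) (fun a => by fun_prop)
            (fun a x x' hx => ?_)).trans ?_
          · have h1 := hd a x x' fun w hw => hx w (Submodule.mem_sup_left hw)
            have h2 := hx (s - s₀) (Submodule.mem_sup_right (Submodule.mem_span_singleton_self _))
            simp only [h1, h2]
          · refine mul_le_mul_right ?_ _
            calc _ ≤ ∏ a : Fin b, ((ENNReal.ofReal (dW W (s - s₀)))⁻¹ *
                    ∫⁻ x, h a x ∂(stdGaussian V)) :=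
                  Finset.prod_le_prod' fun a _ => row_le W (h a) (hm a) (hd a) _ hτ _
              _ = _ := by rw [Finset.prod_mul_distrib]; simp
      _ ≤ _ := by
          have hd' : Measurable fun s => (ENNReal.ofReal (dW W (s - s₀)))⁻¹ ^ b := by
            have := (continuous_dW W).measurable
            fun_prop
          rw [lintegral_const_mul _ (hd'.mul_const _), lintegral_mul_const _ hd', pow_succ,
            mul_assoc]
          gcongr
          exact hθ W (by omega)

end Crest.Agent.R322
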