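import Crest.Agent.R322.Succ
import Crest.Prelude.Def_StreamLearn

/-! Translation of the concrete learner into the abstract form. -/

set_option autoImplicit false
set_option linter.style.haveILetI false

namespace Crest.Agent.R322

open MeasureTheory Metric Set ProbabilityTheory Filter Topology Crest.StreamLearn
open scoped ENNReal RealInnerProductSpace

variable {d T M : ℕ} (L : RLearner d T M)

/-- extended transition -/
noncomputable def stepL (ω : L.Ω) (t : ℕ) (st : L.St × Option ℕ) (x : E d) (y : ℝ) :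
    L.St × Option ℕ :=
  if h : t < T then
    (if st.2.isSome then st else
      if (L.trans ⟨t, h⟩ ω st.1 x y).2 then ((L.trans ⟨t, h⟩ ω st.1 x y).1, some (t + 1))
      else ((L.trans ⟨t, h⟩ ω st.1 x y).1, none))
  else st

/-- extended initial state -/
noncomputable def initL (ω : L.Ω) : L.St × Option ℕ :=
  (L.init ω, if L.stopFirst ω then some 0 else none)

/-- extended output -/
noncomputable def outL (ω : L.Ω) (st : L.St × Option ℕ) : E d := L.out (st.2.getD T) ω st.1

lemma run_eq (ω : L.Ω) (s : E d) (xs : Fin T → E d) :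
    L.run ω s xs = runFrom (stepL L ω) T 0 (initL L ω) xs (obs xs s) := by
  rw [runFrom_eq_foldl, RLearner.run]
  congr 1
  ext1 st
  ext1 i
  simp only [stepL, zero_add, i.isLt, dif_pos, Fin.eta, obs]

lemma reach (ω : L.Ω) (b : ℕ) : ∀ (t : ℕ) (st : L.St × Option ℕ) (X : Fin b → E d) (y : Fin b → ℝ),
    (runFrom (stepL L ω) b t st X y).2 ∈ insert st.2 ((Finset.Ioc t (t + b)).image some) := by
  induction b with
  | zero => intro t st X y; simp [runFrom]
  | succ b ih =>
    intro t st X y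
    rw [runFrom]
    have h1 := ih (t + 1) (stepL L ω t st (X 0) (y 0)) (fun i => X i.succ) (fun i => y i.succ)
    have h2 : (stepL L ω t st (X 0) (y 0)).2 = st.2 ∨
        (stepL L ω t st (X 0) (y 0)).2 = some (t + 1) := by
      unfold stepL
      split_ifs with h3 h4 h5
      · exact Or.inl rfl
      · exact Or.inr rfl
      · left
        simpa using (Option.not_isSome_iff_eq_none.1 h4).symm
      · exact Or.inl rfl
    simp only [Finset.mem_insert, Finset.mem_image, Finset.mem_Ioc] at h1 ⊢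
    rcases h1 with h1 | ⟨a, ha, h1⟩
    · rcases h2 with h2 | h2
      · exact Or.inl (h1.trans h2)
      · exact Or.inr ⟨t + 1, by omega, (h1.trans h2).symm⟩
    · exact Or.inr ⟨a, by omega, h1⟩

lemma reach_card (ω : L.Ω) (b t : ℕ) (st : L.St × Option ℕ) :
    ∃ F : Finset (L.St × Option ℕ), F.card ≤ 2 ^ M * (b + 1) ∧
      ∀ X y, runFrom (stepL L ω) b t st X y ∈ F := by
  letI := L.fin
  refine ⟨Finset.univ ×ˢ (insert st.2 ((Finset.Ioc t (t + b)).image some)), ?_, fun X y => ?_⟩
  · rw [Finset.card_product, Finset.card_univ]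
    refine Nat.mul_le_mul L.card_le ((Finset.card_insert_le _ _).trans ?_)
    have := Finset.card_image_le (s := Finset.Ioc t (t + b)) (f := some)
    simp only [Nat.card_Ioc] at this
    omega
  · exact Finset.mem_product.2 ⟨Finset.mem_univ _, reach L ω b t st X y⟩

lemma measurable_stepL (t : ℕ) (st : L.St × Option ℕ) :
    @Measurable (L.Ω × E d × ℝ) (L.St × Option ℕ) (@Prod.instMeasurableSpace _ _ L.mΩ _) ⊤
      fun p => stepL L p.1 t st p.2.1 p.2.2 := by
  letI := L.mΩ
  letI := L.fin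
  letI : MeasurableSpace L.St := ⊤
  unfold stepL
  by_cases h : t < T
  · simp only [h, dif_pos]
    by_cases h2 : st.2.isSome
    · simp only [h2, if_true]; exact measurable_const
    · simp only [h2]
      have h3 : Measurable fun p : L.Ω × E d × ℝ => L.trans ⟨t, h⟩ p.1 st.1 p.2.1 p.2.2 :=
        (L.trans_measurable ⟨t, h⟩ st.1).1.prodMk (L.trans_measurable ⟨t, h⟩ st.1).2
      have h4 : @Measurable (L.St × Bool) (L.St × Option ℕ) _ ⊤
          fun r => if r.2 then (r.1, some (t + 1)) else (r.1, none) :=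
        @Measurable.of_discrete _ _ _ ⊤ _ _
      exact h4.comp h3
  · simp only [h, dif_neg, not_false_eq_true]; exact measurable_const

lemma measurable_initL : @Measurable L.Ω (L.St × Option ℕ) L.mΩ ⊤ (initL L) := by
  letI := L.mΩ
  letI := L.fin
  letI : MeasurableSpace L.St := ⊤
  have h3 : Measurable fun ω : L.Ω => (L.init ω, L.stopFirst ω) :=
    L.init_measurable.prodMk L.stopFirst_measurable
  have h4 : @Measurable (L.St × Bool) (L.St × Option ℕ) _ ⊤
      fun r => (r.1, if r.2 then some 0 else none) := @Measurable.of_discrete _ _ _ ⊤ _ _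
  exact h4.comp h3

lemma norm_sub_le_of_arccos {V : Type*} [NormedAddCommGroup V] [InnerProductSpace ℝ V] {u s : V}
    (hu : ‖u‖ = 1) (hs : ‖s‖ = 1) {ε : ℝ} (h : Real.arccos ⟪u, s⟫ ≤ ε) : ‖u - s‖ ≤ ε := by
  have h1 : |⟪u, s⟫| ≤ 1 := by simpa [hu, hs] using abs_real_inner_le_norm u s
  have h2 := Real.cos_arccos (abs_le.1 h1).1 (abs_le.1 h1).2
  have h3 := Real.one_sub_sq_div_two_le_cos (x := Real.arccos ⟪u, s⟫)
  have h4 := Real.arccos_nonneg ⟪u, s⟫
  have h5 : ‖u - s‖ ^ 2 ≤ (Real.arccos ⟪u, s⟫) ^ 2 := by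
    rw [norm_sub_sq_real, hu, hs]; linarith
  exact (pow_le_pow_left₀ (norm_nonneg _) (le_refl _) 2 |>.trans h5 |> abs_le_of_sq_le_sq' <| h4).2.trans h

lemma le_succ [Nonempty (Fin d)] {ε ε' : ℝ} (hε : ε ≤ ε') (h : 2 / 3 ≤ L.successProb ε) :
    letI := L.mΩ
    ENNReal.ofReal (2 / 3) ≤ ((sig (E d)).prod (L.ρ.prod (gam (E d) T)))
      (succSet (stepL L) (initL L) (outL L) T ε') := by
  letI := L.mΩ
  letI := L.fin
  haveI := L.prob
  letI : MeasurableSpace (L.St × Option ℕ) := ⊤
  have hm := measurableSet_succSet (measurable_stepL L) (measurable_initL L)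
    (out := outL L) (fun q => L.out_measurable _ _) T ε'
  refine (ENNReal.ofReal_le_ofReal h).trans (ENNReal.ofReal_toReal_le.trans ?_)
  have e : (sig (E d)).prod (L.ρ.prod (gam (E d) T)) =
      ((sphU (E d)).prod (L.ρ.prod (gam (E d) T))).map (Prod.map (↑) id) := by
    rw [← Measure.map_prod_map _ _ measurable_subtype_coe measurable_id, Measure.map_id, sig]
  rw [e, Measure.map_apply (measurable_subtype_coe.prodMap measurable_id) hm]
  refine measure_mono fun p hp => ?_
  have h1 : Real.arccos ⟪L.output p.2.1 p.1 p.2.2, (p.1 : E d)⟫ ≤ ε := hp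
  have h2 := norm_sub_le_of_arccos (L.out_unit _ _ _) (by simp) h1
  show ‖outL L p.2.1 (runFrom (stepL L p.2.1) T 0 (initL L p.2.1) p.2.2 (obs p.2.2 p.1)) - p.1‖ ≤ ε'
  rw [← run_eq]
  exact h2.trans hε

lemma T_large (hd : 8 ≤ d) {ε : ℝ} (hε : ε ≤ 1 / 10) (h : 2 / 3 ≤ L.successProb ε) : d < 2 * T := by
  letI := L.mΩ
  letI := L.fin
  haveI := L.prob
  letI : MeasurableSpace (L.St × Option ℕ) := ⊤
  haveI : Nonempty (Fin d) := ⟨⟨0, by omega⟩⟩
  by_contra hT
  push Not at hT
  have h1 := le_succ L hε h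
  have h2 := succ_le_reflect L.ρ (measurable_stepL L) (measurable_initL L)
    (out := outL L) (fun q => L.out_measurable _ _) T (ε := 1 / 10) (by norm_num)
  have h3 := (mul_le_mul_right h1 2).trans h2
  rw [finrank_euclideanSpace_fin, ← ENNReal.ofReal_ofNat 2, ← ENNReal.ofReal_mul (by norm_num),
    ← ENNReal.ofReal_pow (by norm_num), ← ENNReal.ofReal_pow (by norm_num),
    ← ENNReal.ofReal_mul (by positivity), ← ENNReal.ofReal_one,
    ← ENNReal.ofReal_add (by norm_num) (by positivity),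
    ENNReal.ofReal_le_ofReal_iff (by positivity)] at h3
  have h4 : (((1 : ℝ) + 1 / 10) / (1 / 10)) ^ T ≤ 4 ^ d := by
    calc (((1 : ℝ) + 1 / 10) / (1 / 10)) ^ T ≤ (4 ^ 2) ^ T := by gcongr; norm_num
      _ = 4 ^ (2 * T) := by rw [pow_mul]
      _ ≤ 4 ^ d := pow_le_pow_right₀ (by norm_num) hT
  have h5 : (4 : ℝ) ^ d * (2 * (1 / 10)) ^ d ≤ (4 / 5) ^ 8 := by
    rw [← mul_pow]
    have : (4 : ℝ) * (2 * (1 / 10)) = 4 / 5 := by norm_num
    rw [this]
    exact pow_le_pow_of_le_one (by norm_num) (by norm_num) hd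
  have h6 : (((1 : ℝ) + 1 / 10) / (1 / 10)) ^ T * (2 * (1 / 10)) ^ d ≤ 4 ^ d * (2 * (1 / 10)) ^ d := by
    gcongr
  have h7 : ((4 : ℝ) / 5) ^ 8 < 1 / 4 := by norm_num
  linarith

lemma main_ineq (hd : 8 ≤ d) {ε : ℝ} (hε : 0 < ε) (h : 2 / 3 ≤ L.successProb ε) :
    (2 / 3 : ℝ) ≤ 2 ^ (2 * d + (T / (d / 4) + 1) * (M / (d / 4) + 8 * (d / 4) + 6 + d)) *
      ε ^ (d - 1 - (2 * (d / 4) + 1)) := by
  letI := L.mΩ
  letI := L.fin
  haveI := L.prob
  letI : MeasurableSpace (L.St × Option ℕ) := ⊤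
  haveI : Nonempty (Fin d) := ⟨⟨0, by omega⟩⟩
  set k := d / 4 with hk
  have hk0 : 0 < k := by omega
  have h1 := le_succ L le_rfl h
  have h2 := succ_le_frost L.ρ (measurable_stepL L) (measurable_initL L)
    (out := outL L) (fun q => L.out_measurable _ _) hε (k := k)
    (by rw [finrank_euclideanSpace_fin]; omega) (D := 2 ^ (M / k + 2)) (by positivity)
    (by finiteness) (T := T) (m := T / k + 1) (fun ω b hb t st => ?_) ?_
  · have h3 := h1.trans h2
    rw [finrank_euclideanSpace_fin] at h3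
    have h4 : (1 : ℝ≥0∞) + 2 ^ (M / k + 2) * 2 ^ (8 * k + 3 + d) ≤ 2 ^ (M / k + 8 * k + 6 + d) := by
      rw [← pow_add]
      calc _ ≤ (2 : ℝ≥0∞) ^ (M / k + 2 + (8 * k + 3 + d)) + 2 ^ (M / k + 2 + (8 * k + 3 + d)) := by
            gcongr
            exact one_le_pow₀ (by norm_num)
        _ = _ := by rw [← two_mul, ← pow_succ']; congr 1; ring
    have h5 : ENNReal.ofReal (2 / 3) ≤
        2 ^ (2 * d + (T / k + 1) * (M / k + 8 * k + 6 + d)) *
          ENNReal.ofReal ε ^ (d - 1 - (2 * k + 1)) := by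
      refine h3.trans ?_
      calc _ ≤ (2 ^ (d + 1) * ENNReal.ofReal (2 * ε) ^ (d - 1 - (2 * k + 1))) *
            (2 ^ (M / k + 8 * k + 6 + d)) ^ (T / k + 1) * ENNReal.ofReal 2 ^ (2 * k + 1) := by
            gcongr
        _ = _ := by
            rw [ENNReal.ofReal_mul (by norm_num), ENNReal.ofReal_ofNat, mul_pow, ← pow_mul]
            obtain ⟨n, hn⟩ : ∃ n, d = n + 1 + (2 * k + 1) := ⟨d - 1 - (2 * k + 1), by omega⟩
            have e : d - 1 - (2 * k + 1) = n := by omega
            have e2 : 2 * d = (d + 1) + n + (2 * k + 1) := by omega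
            rw [e, e2]
            ring
    rw [← ENNReal.ofReal_ofNat 2, ← ENNReal.ofReal_pow (by norm_num), ← ENNReal.ofReal_pow hε.le,
      ← ENNReal.ofReal_mul (by positivity), ENNReal.ofReal_le_ofReal_iff (by positivity)] at h5
    exact h5
  · obtain ⟨F, hF, hFm⟩ := reach_card L ω b t st
    refine ⟨F, ?_, hFm⟩
    have h3 : 2 ^ M * (b + 1) ≤ (2 ^ (M / k + 2)) ^ k := by
      rw [← pow_mul]
      have e : (M / k + 2) * k = (M / k + 1) * k + k := by ring
      rw [e, pow_add]
      refine Nat.mul_le_mul (Nat.pow_le_pow_right (by norm_num) ?_) ?_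
      · have := Nat.lt_div_mul_add (a := M) hk0
        nlinarith
      · have := Nat.lt_two_pow_self (n := k)
        omega
    exact_mod_cast hF.trans h3
  · have := Nat.lt_div_mul_add (a := T) hk0
    nlinarith

end Crest.Agent.R322
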