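import Crest.Agent.R322.Dens

/-! The reference measure of the region of consistent measurements. -/

set_option autoImplicit false

namespace Crest.Agent.R322

open MeasureTheory Metric Set ProbabilityTheory Filter Topology
open scoped ENNReal RealInnerProductSpace

lemma sq_le_lintegral_mul {α : Type*} [MeasurableSpace α] (μ : Measure α) {f : α → ℝ≥0∞}
    (hf : Measurable f) (h0 : ∀ x, f x ≠ 0) (ht : ∀ x, f x ≠ ∞) :
    μ univ ^ 2 ≤ (∫⁻ x, (f x)⁻¹ ∂μ) * ∫⁻ x, f x ∂μ := by
  have h := ENNReal.lintegral_mul_le_Lp_mul_Lq μ Real.HolderConjugate.two_two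
    (f := fun x => (f x)⁻¹ ^ (1 / 2 : ℝ)) (g := fun x => f x ^ (1 / 2 : ℝ))
    (by fun_prop) (by fun_prop)
  have e1 : ∀ x, ((fun x => (f x)⁻¹ ^ (1 / 2 : ℝ)) * fun x => f x ^ (1 / 2 : ℝ)) x = 1 := by
    intro x
    simp only [Pi.mul_apply]
    rw [← ENNReal.mul_rpow_of_nonneg _ _ (by norm_num), ENNReal.inv_mul_cancel (h0 x) (ht x),
      ENNReal.one_rpow]
  have e2 : ∀ y : ℝ≥0∞, (y ^ (1 / 2 : ℝ)) ^ (2 : ℝ) = y := by
    intro y
    rw [← ENNReal.rpow_mul]; norm_num
  simp only [e1, e2, lintegral_const, one_mul] at h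
  rw [← ENNReal.mul_rpow_of_nonneg _ _ (by norm_num)] at h
  rw [← e2 (_ * _), ← ENNReal.rpow_natCast]
  exact ENNReal.rpow_le_rpow h (by norm_num)

lemma lintegral_cauchy {ρ : ℝ} (hρ : 0 < ρ) :
    ∫⁻ r : ℝ, (ENNReal.ofReal (ρ ^ 2 + r ^ 2))⁻¹ ≤ ENNReal.ofReal (4 / ρ) := by
  have e : ∀ r : ℝ, (ENNReal.ofReal (ρ ^ 2 + r ^ 2))⁻¹ =
      ENNReal.ofReal ((ρ ^ 2)⁻¹ * (1 + (r / ρ) ^ 2)⁻¹) := by
    intro r
    rw [← ENNReal.ofReal_inv_of_pos (by positivity)]
    congr 1
    field_simp
  simp_rw [e]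
  have hi : Integrable fun r : ℝ => (ρ ^ 2)⁻¹ * (1 + (r / ρ) ^ 2)⁻¹ :=
    (integrable_inv_one_add_sq.comp_div hρ.ne').const_mul _
  rw [← ofReal_integral_eq_lintegral_ofReal hi (ae_of_all _ fun x => by positivity),
    integral_const_mul, Measure.integral_comp_div (fun x : ℝ => (1 + x ^ 2)⁻¹),
    integral_univ_inv_one_add_sq, abs_of_pos hρ, smul_eq_mul]
  refine ENNReal.ofReal_le_ofReal ?_
  have : (ρ ^ 2)⁻¹ * (ρ * Real.pi) = Real.pi / ρ := by field_simp
  rw [this]
  gcongr
  exact Real.pi_le_four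

variable {V : Type*} [NormedAddCommGroup V] [InnerProductSpace ℝ V] [FiniteDimensional ℝ V]
  [MeasurableSpace V] [BorelSpace V]

lemma region (b : ℕ) (c : V) {ρ : ℝ} (hρ : 0 < ρ) :
    ∃ G : Set ((Fin b → V) × (Fin b → ℝ)), MeasurableSet G ∧
      (∀ X, ∀ s ∈ ball c ρ, (X, obs X s) ∈ G) ∧
      refM V b G ≤ 2 ^ Module.finrank ℝ V * (8 * ENNReal.ofReal ρ) ^ b := by
  let φ : (Fin b → ℝ) → ℝ≥0∞ := fun η => ∏ a, ENNReal.ofReal (ρ ^ 2 + η a ^ 2)
  have hφ : Measurable φ := by fun_prop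
  have hφ0 : ∀ η, φ η ≠ 0 := fun η => Finset.prod_ne_zero_iff.2 fun a _ => by
    simp only [ne_eq, ENNReal.ofReal_eq_zero, not_le]; positivity
  have hφt : ∀ η, φ η ≠ ∞ := fun η => ENNReal.prod_ne_top fun a _ => ENNReal.ofReal_ne_top
  let A : (Fin b → V) × (Fin b → ℝ) → ℝ≥0∞ :=
    fun p => ∫⁻ g in ball c (2 * ρ), (φ (p.2 - obs p.1 g))⁻¹
  let B : (Fin b → V) → ℝ≥0∞ := fun X => ∫⁻ g in ball (0 : V) ρ, φ (obs X g)
  have hA' : Measurable fun q : ((Fin b → V) × (Fin b → ℝ)) × V =>
      (φ (q.1.2 - obs q.1.1 q.2))⁻¹ := by fun_prop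
  have hA : Measurable A := hA'.lintegral_prod_right'
  have hB' : Measurable fun q : (Fin b → V) × V => φ (obs q.1 q.2) := by fun_prop
  have hB : Measurable B := hB'.lintegral_prod_right'
  set Vol : ℝ≥0∞ := volume (ball (0 : V) ρ) with hVol
  have hV0 : Vol ≠ 0 := (measure_ball_pos volume 0 hρ).ne'
  have hVt : Vol ≠ ∞ := measure_ball_lt_top.ne
  have hAB : Measurable fun p : (Fin b → V) × (Fin b → ℝ) => A p * B p.1 := by fun_prop
  refine ⟨{p | Vol ^ 2 ≤ A p * B p.1}, measurableSet_le measurable_const hAB, ?_, ?_⟩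
  · intro X s hs
    have h1 := sq_le_lintegral_mul (volume.restrict (ball (0 : V) ρ)) (f := fun g => φ (obs X g))
      (by fun_prop) (fun _ => hφ0 _) (fun _ => hφt _)
    rw [Measure.restrict_apply_univ] at h1
    refine h1.trans (mul_le_mul_left ?_ _)
    show _ ≤ ∫⁻ g in ball c (2 * ρ), (φ (obs X s - obs X g))⁻¹
    rw [← lintegral_indicator measurableSet_ball, ← lintegral_indicator measurableSet_ball,
      ← lintegral_sub_left_eq_self _ s]
    refine lintegral_mono fun g => ?_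
    by_cases hg : s - g ∈ ball (0 : V) ρ
    · have hg2 : g ∈ ball c (2 * ρ) := by
        rw [mem_ball, dist_eq_norm] at hs hg ⊢
        have : g - c = (s - c) - (s - g - 0) := by abel
        rw [this]
        linarith [norm_sub_le (s - c) (s - g - 0)]
      rw [indicator_of_mem hg, indicator_of_mem hg2]
      have : obs X (s - g) = obs X s - obs X g := by
        ext a; simp [obs, inner_sub_right]
      rw [this]
    · rw [indicator_of_notMem hg]; exact zero_le
  · have h1 := mul_meas_ge_le_lintegral₀ (μ := refM V b) hAB.aemeasurable (Vol ^ 2)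
    have h2 : ∀ X, ∫⁻ y, A (X, y) ≤ (2 ^ Module.finrank ℝ V * Vol) * ENNReal.ofReal (4 / ρ) ^ b := by
      intro X
      show ∫⁻ y, ∫⁻ g in ball c (2 * ρ), (φ (y - obs X g))⁻¹ ≤ _
      rw [lintegral_lintegral_swap (by fun_prop)]
      calc _ ≤ ∫⁻ _ in ball c (2 * ρ), ENNReal.ofReal (4 / ρ) ^ b := by
            refine lintegral_mono fun g => ?_
            rw [lintegral_sub_right_eq_self (fun y => (φ y)⁻¹) (obs X g)]
            have : ∀ y : Fin b → ℝ, (φ y)⁻¹ = ∏ a, (ENNReal.ofReal (ρ ^ 2 + y a ^ 2))⁻¹ := by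
              intro y
              refine ENNReal.prod_inv_distrib ?_
              intro i _ j _ _
              exact Or.inr ENNReal.ofReal_ne_top
            simp_rw [this]
            rw [volume_pi, lintegral_pi_prod volume
              (fun _ r => (ENNReal.ofReal (ρ ^ 2 + r ^ 2))⁻¹) (fun _ => by fun_prop)]
            simp only [Finset.prod_const, Finset.card_univ, Fintype.card_fin]
            gcongr
            exact lintegral_cauchy hρ
        _ = _ := by
            rw [setLIntegral_const, Measure.addHaar_ball_mul_of_pos volume c two_pos ρ,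
              ENNReal.ofReal_pow (by norm_num), ENNReal.ofReal_ofNat, mul_comm]
    have h3 : ∫⁻ X, B X ∂(gam V b) ≤ Vol * ENNReal.ofReal (2 * ρ ^ 2) ^ b := by
      show ∫⁻ X, ∫⁻ g in ball (0 : V) ρ, φ (obs X g) ∂volume ∂(gam V b) ≤ _
      rw [lintegral_lintegral_swap (by fun_prop)]
      calc _ ≤ ∫⁻ _ in ball (0 : V) ρ, ENNReal.ofReal (2 * ρ ^ 2) ^ b := by
            refine setLIntegral_mono' measurableSet_ball fun g hg => ?_
            have := lintegral_pi_prod (n := b) (stdGaussian V)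
              (fun _ x => ENNReal.ofReal (ρ ^ 2 + ⟪x, g⟫ ^ 2)) (fun _ => by fun_prop)
            refine this.le.trans ?_
            simp only [Finset.prod_const, Finset.card_univ, Fintype.card_fin, second_moment]
            have hg' : ‖g‖ < ρ := mem_ball_zero_iff.1 hg
            gcongr
            nlinarith [norm_nonneg g]
        _ = _ := by rw [setLIntegral_const, mul_comm]
    have h4 : ∫⁻ p, A p * B p.1 ∂(refM V b) ≤
        Vol ^ 2 * (2 ^ Module.finrank ℝ V * (8 * ENNReal.ofReal ρ) ^ b) := by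
      rw [lintegral_prod _ hAB.aemeasurable]
      calc _ ≤ ∫⁻ X, ((2 ^ Module.finrank ℝ V * Vol) * ENNReal.ofReal (4 / ρ) ^ b) * B X
              ∂(gam V b) := by
            refine lintegral_mono fun X => ?_
            simp only
            rw [lintegral_mul_const _ (by fun_prop)]
            exact mul_le_mul_left (h2 X) _
        _ ≤ ((2 ^ Module.finrank ℝ V * Vol) * ENNReal.ofReal (4 / ρ) ^ b) *
              (Vol * ENNReal.ofReal (2 * ρ ^ 2) ^ b) := by
            rw [lintegral_const_mul _ hB]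
            exact mul_le_mul_right h3 _
        _ = Vol ^ 2 * (2 ^ Module.finrank ℝ V *
              (ENNReal.ofReal (4 / ρ) * ENNReal.ofReal (2 * ρ ^ 2)) ^ b) := by
            rw [mul_pow]; ring
        _ = _ := by
            congr 3
            rw [← ENNReal.ofReal_mul (by positivity), ← ENNReal.ofReal_ofNat,
              ← ENNReal.ofReal_mul (by positivity)]
            congr 1
            field_simp
            norm_num
    exact (ENNReal.mul_le_mul_iff_right (pow_ne_zero _ hV0) (ENNReal.pow_ne_top hVt)).1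
      (h1.trans h4)

end Crest.Agent.R322
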