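import Crest.Agent.R322.Block

/-! Abstract one-pass runs and the backward induction over blocks. -/

set_option autoImplicit false

namespace Crest.Agent.R322

open MeasureTheory Metric Set ProbabilityTheory Filter Topology
open scoped ENNReal RealInnerProductSpace

/-- run `b` steps from time `t` and state `st` -/
def runFrom {S V : Type*} (step : ℕ → S → V → ℝ → S) :
    (b : ℕ) → ℕ → S → (Fin b → V) → (Fin b → ℝ) → S
  | 0, _, st, _, _ => st
  | b + 1, t, st, X, y =>
      runFrom step b (t + 1) (step t st (X 0) (y 0)) (fun i => X i.succ) (fun i => y i.succ)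

lemma runFrom_eq_foldl {S V : Type*} (step : ℕ → S → V → ℝ → S) (b : ℕ) :
    ∀ (t : ℕ) (st : S) (X : Fin b → V) (y : Fin b → ℝ), runFrom step b t st X y =
      (List.finRange b).foldl (fun st i => step (t + i.val) st (X i) (y i)) st := by
  induction b with
  | zero => intro t st X y; rfl
  | succ b ih =>
    intro t st X y
    rw [runFrom, ih, List.finRange_succ, List.foldl_cons, List.foldl_map]
    simp only [Fin.val_zero, add_zero, Fin.val_succ]
    congr 1
    ext st i
    congr 1
    omega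

variable {V : Type*} [NormedAddCommGroup V] [InnerProductSpace ℝ V] [FiniteDimensional ℝ V]
  [MeasurableSpace V] [BorelSpace V]
variable {S : Type*} [MeasurableSpace S] [MeasurableSingletonClass S] [Countable S]

omit [NormedAddCommGroup V] [InnerProductSpace ℝ V] [FiniteDimensional ℝ V] [BorelSpace V] in
lemma measurable_runFrom {Ω : Type*} [MeasurableSpace Ω] (step : Ω → ℕ → S → V → ℝ → S)
    (h : ∀ t st, Measurable fun p : Ω × V × ℝ => step p.1 t st p.2.1 p.2.2) (b : ℕ) :
    ∀ t, Measurable fun p : S × Ω × (Fin b → V) × (Fin b → ℝ) =>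
      runFrom (step p.2.1) b t p.1 p.2.2.1 p.2.2.2 := by
  induction b with
  | zero => intro t; exact measurable_fst
  | succ b ih =>
    intro t
    have h1 : Measurable fun p : S × Ω × (Fin (b + 1) → V) × (Fin (b + 1) → ℝ) =>
        step p.2.1 t p.1 (p.2.2.1 0) (p.2.2.2 0) := by
      refine measurable_from_prod_countable_right fun st => ?_
      exact (h t st).comp
        (f := fun p : Ω × (Fin (b + 1) → V) × (Fin (b + 1) → ℝ) => (p.1, p.2.1 0, p.2.2 0))
        (by fun_prop)
    exact (ih (t + 1)).comp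
      (f := fun p : S × Ω × (Fin (b + 1) → V) × (Fin (b + 1) → ℝ) =>
        (step p.2.1 t p.1 (p.2.2.1 0) (p.2.2.2 0), p.2.1, (fun i => p.2.2.1 i.succ),
          (fun i => p.2.2.2 i.succ)))
      (h1.prodMk (by fun_prop))

omit [NormedAddCommGroup V] [InnerProductSpace ℝ V] [FiniteDimensional ℝ V] [BorelSpace V] in
lemma measurable_runFrom' {step : ℕ → S → V → ℝ → S}
    (h : ∀ t st, Measurable fun p : V × ℝ => step t st p.1 p.2) (b t : ℕ) :
    Measurable fun p : S × (Fin b → V) × (Fin b → ℝ) => runFrom step b t p.1 p.2.1 p.2.2 :=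
  (measurable_runFrom (Ω := Unit) (fun _ => step) (fun t st => (h t st).comp measurable_snd)
    b t).comp (f := fun p : S × (Fin b → V) × (Fin b → ℝ) => (p.1, (), p.2)) (by fun_prop)

/-- expected terminal payoff -/
noncomputable def U (step : ℕ → S → V → ℝ → S) (g : S → V → ℝ≥0∞) (n t : ℕ) (st : S) (s : V) :
    ℝ≥0∞ :=
  ∫⁻ X, g (runFrom step n t st X (obs X s)) s ∂(gam V n)

variable {step : ℕ → S → V → ℝ → S}

lemma measurable_payoff (h : ∀ t st, Measurable fun p : V × ℝ => step t st p.1 p.2)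
    {g : S → V → ℝ≥0∞} (hg : ∀ q, Measurable (g q)) (n t : ℕ) :
    Measurable fun p : (S × V) × (Fin n → V) =>
      g (runFrom step n t p.1.1 p.2 (obs p.2 p.1.2)) p.1.2 := by
  have hg' : Measurable fun p : S × V => g p.1 p.2 := measurable_from_prod_countable_right hg
  have h1 : Measurable fun p : (S × V) × (Fin n → V) =>
      runFrom step n t p.1.1 p.2 (obs p.2 p.1.2) :=
    (measurable_runFrom' h n t).comp
      (f := fun p : (S × V) × (Fin n → V) => (p.1.1, p.2, obs p.2 p.1.2)) (by fun_prop)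
  exact hg'.comp (h1.prodMk (by fun_prop))

lemma measurable_U' (h : ∀ t st, Measurable fun p : V × ℝ => step t st p.1 p.2)
    {g : S → V → ℝ≥0∞} (hg : ∀ q, Measurable (g q)) (n t : ℕ) :
    Measurable fun p : S × V => U step g n t p.1 p.2 :=
  (measurable_payoff h hg n t).lintegral_prod_right'

lemma measurable_U (h : ∀ t st, Measurable fun p : V × ℝ => step t st p.1 p.2)
    {g : S → V → ℝ≥0∞} (hg : ∀ q, Measurable (g q)) (n t : ℕ) (q : S) :
    Measurable (U step g n t q) :=
  (measurable_U' h hg n t).comp (f := fun s => (q, s)) (by fun_prop)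

omit [MeasurableSpace S] [MeasurableSingletonClass S] [Countable S] in
lemma U_le_one {g : S → V → ℝ≥0∞} (hg1 : ∀ q s, g q s ≤ 1) (n t : ℕ) (q : S) (s : V) :
    U step g n t q s ≤ 1 :=
  (lintegral_mono (g := fun _ => 1) fun _ => hg1 _ _).trans (by simp)

omit [MeasurableSpace S] [MeasurableSingletonClass S] [Countable S] in
lemma U_zero (g : S → V → ℝ≥0∞) (t : ℕ) (q : S) : U step g 0 t q = g q := by
  ext s
  simp [U, runFrom]

lemma U_succ (h : ∀ t st, Measurable fun p : V × ℝ => step t st p.1 p.2)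
    {g : S → V → ℝ≥0∞} (hg : ∀ q, Measurable (g q)) (n t : ℕ) (q : S) (s : V) :
    U step g (n + 1) t q s =
      ∫⁻ x, U step g n (t + 1) (step t q x ⟪x, s⟫) s ∂(stdGaussian V) := by
  unfold U
  rw [← ((measurePreserving_piFinSuccAbove (fun _ : Fin (n + 1) => stdGaussian V) 0).symm).lintegral_comp_emb
    (MeasurableEquiv.measurableEmbedding _)]
  have h1 : Measurable fun x : V => step t q x ⟪x, s⟫ :=
    (h t q).comp (f := fun x : V => (x, ⟪x, s⟫)) (by fun_prop)
  have h2 : Measurable fun p : V × (Fin n → V) =>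
      g (runFrom step n (t + 1) (step t q p.1 ⟪p.1, s⟫) p.2 (obs p.2 s)) s :=
    (measurable_payoff h hg n (t + 1)).comp
      (f := fun p : V × (Fin n → V) => ((step t q p.1 ⟪p.1, s⟫, s), p.2))
      (((h1.comp measurable_fst).prodMk measurable_const).prodMk measurable_snd)
  rw [← lintegral_prod _ h2.aemeasurable]
  refine lintegral_congr fun p => ?_
  simp only [MeasurableEquiv.piFinSuccAbove_symm_apply, Fin.insertNthEquiv, Fin.insertNth_zero,
    Equiv.coe_fn_mk, cast_eq, runFrom, obs, Fin.cons_succ, Fin.cons_zero]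
  rfl

lemma U_add (h : ∀ t st, Measurable fun p : V × ℝ => step t st p.1 p.2)
    {g : S → V → ℝ≥0∞} (hg : ∀ q, Measurable (g q)) (n b : ℕ) :
    ∀ t q, U step g (n + b) t q = U step (U step g n (t + b)) b t q := by
  induction b with
  | zero => intro t q; rw [U_zero]; rfl
  | succ b ih =>
    intro t q
    ext s
    rw [← add_assoc, U_succ h hg, U_succ h (measurable_U h hg _ _)]
    simp_rw [ih]
    have : t + 1 + b = t + (b + 1) := by omega
    rw [this]

theorem frost_U (h : ∀ t st, Measurable fun p : V × ℝ => step t st p.1 p.2)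
    (σ : Measure V) [IsFiniteMeasure σ] {k : ℕ} {D : ℝ≥0∞} (hD0 : D ≠ 0) (hDt : D ≠ ∞)
    (hreach : ∀ b ≤ k, ∀ t st, ∃ F : Finset S, (F.card : ℝ≥0∞) ≤ D ^ k ∧
      ∀ X y, runFrom step b t st X y ∈ F)
    {g : S → V → ℝ≥0∞} (hg : ∀ q, Measurable (g q)) (hg1 : ∀ q s, g q s ≤ 1) {κ : ℝ≥0∞}
    (hκ0 : κ ≠ 0) (hκt : κ ≠ ∞) (hfr : ∀ q, Frost (σ.withDensity (g q)) κ (2 * k + 1)) (m : ℕ) :
    ∀ n ≤ m * k, ∀ t q, Frost (σ.withDensity (U step g n t q))
      (κ * (1 + D * 2 ^ (8 * k + 3 + Module.finrank ℝ V)) ^ m) (2 * k + 1) := by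
  induction m with
  | zero =>
    intro n hn t q
    obtain rfl : n = 0 := by omega
    rw [U_zero, pow_zero, mul_one]
    exact hfr q
  | succ m ih =>
    intro n hn t q
    obtain ⟨b, n', hb, hn', rfl⟩ : ∃ b n', b ≤ k ∧ n' ≤ m * k ∧ n = n' + b := by
      rw [add_mul, one_mul] at hn
      exact ⟨min n k, n - min n k, min_le_right _ _, by omega, by omega⟩
    obtain ⟨F, hF, hFm⟩ := hreach b hb t q
    rw [U_add h hg, pow_succ _ m, ← mul_assoc]
    exact block σ hb F hD0 hDt hF (U step g n' (t + b)) (measurable_U h hg _ _)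
      (U_le_one hg1 _ _) (by positivity) (by finiteness) (ih n' hn' (t + b))
      (fun p => runFrom step b t q p.1 p.2)
      ((measurable_runFrom' h b t).comp (f := fun p => (q, p)) (by fun_prop))
      (fun p => hFm _ _)

end Crest.Agent.R322
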