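import Crest.Agent.R322.Dens

/-! The uniform law on the sphere: tubes, caps, reflection. -/

set_option autoImplicit false

namespace Crest.Agent.R322

open MeasureTheory Metric Set ProbabilityTheory Filter Topology
open scoped ENNReal RealInnerProductSpace Pointwise

variable {V : Type*} [NormedAddCommGroup V] [InnerProductSpace ℝ V] [FiniteDimensional ℝ V]
  [MeasurableSpace V] [BorelSpace V]

variable (V) in
/-- uniform law on the sphere -/
noncomputable def sphU : Measure (sphere (0 : V) 1) :=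
  ((volume : Measure V).toSphere univ)⁻¹ • (volume : Measure V).toSphere

variable (V) in
/-- uniform law on the sphere as a measure on the ambient space -/
noncomputable def sig : Measure V := (sphU V).map (↑)

variable [Nontrivial V]

instance : IsProbabilityMeasure (sphU V) := ⟨by
  rw [sphU, Measure.smul_apply, smul_eq_mul, ENNReal.inv_mul_cancel]
  · exact fun h => Measure.toSphere_ne_zero _ (Measure.measure_univ_eq_zero.1 h)
  · exact measure_ne_top _ _⟩

instance : IsProbabilityMeasure (sig V) :=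
  Measure.isProbabilityMeasure_map measurable_subtype_coe.aemeasurable

lemma sig_apply {S : Set V} (hS : MeasurableSet S) :
    sig V S = (volume (ball (0 : V) 1))⁻¹ * volume (Ioo (0 : ℝ) 1 • (sphere (0 : V) 1 ∩ S)) := by
  rw [sig, Measure.map_apply measurable_subtype_coe hS, sphU, Measure.smul_apply, smul_eq_mul,
    Measure.toSphere_apply' _ (measurable_subtype_coe hS), Measure.toSphere_apply_univ,
    Subtype.image_preimage_coe]
  have hd : (Module.finrank ℝ V : ℝ≥0∞) ≠ 0 := by simp [Module.finrank_pos.ne']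
  rw [ENNReal.mul_inv (Or.inl hd) (Or.inl (by simp))]
  calc _ = (((Module.finrank ℝ V : ℝ≥0∞))⁻¹ * Module.finrank ℝ V) * ((volume (ball (0 : V) 1))⁻¹ *
        volume (Ioo (0 : ℝ) 1 • (sphere (0 : V) 1 ∩ S))) := by ring
    _ = _ := by rw [ENNReal.inv_mul_cancel hd (by simp), one_mul]

omit [Nontrivial V] in
lemma frost_volume : Frost (volume : Measure V) (volume (ball (0 : V) 1)) (Module.finrank ℝ V) := by
  intro x t ht
  rw [Measure.addHaar_ball_of_pos volume x ht, ENNReal.ofReal_pow ht.le, mul_comm]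

lemma sig_tube (W : Submodule ℝ V) {l : ℕ} (hl : Module.finrank ℝ W ≤ l) {t : ℝ} (ht : 0 < t) :
    sig V {s | dW W s ≤ t} ≤
      ENNReal.ofReal ((1 + t) / t) ^ l * ENNReal.ofReal (2 * t) ^ Module.finrank ℝ V := by
  rw [sig_apply (measurableSet_le (continuous_dW W).measurable measurable_const)]
  have h1 := tube_le volume frost_volume W hl 0 zero_le_one ht
  have h2 : Ioo (0 : ℝ) 1 • (sphere (0 : V) 1 ∩ {s | dW W s ≤ t}) ⊆
      {s | ‖s - 0‖ ≤ 1 ∧ dW W (s - 0) ≤ t} := by
    rintro _ ⟨r, hr, s, ⟨hs1, hs2⟩, rfl⟩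
    have hs1' : ‖s‖ = 1 := by simpa using hs1
    have hs2' : dW W s ≤ t := hs2
    simp only [sub_zero, mem_ofPred_eq, dW_smul, norm_smul, hs1', Real.norm_eq_abs,
      abs_of_pos hr.1, mul_one]
    exact ⟨hr.2.le, by nlinarith [hr.1, hr.2, dW_nonneg W s]⟩
  have h0 : volume (ball (0 : V) 1) ≠ 0 := (measure_ball_pos volume 0 one_pos).ne'
  have ht' : volume (ball (0 : V) 1) ≠ ∞ := measure_ball_lt_top.ne
  calc _ ≤ (volume (ball (0 : V) 1))⁻¹ * (ENNReal.ofReal ((1 + t) / t) ^ l *
        (volume (ball (0 : V) 1) * ENNReal.ofReal (2 * t) ^ Module.finrank ℝ V)) :=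
        mul_le_mul_right ((measure_mono h2).trans h1) _
    _ = ((volume (ball (0 : V) 1))⁻¹ * volume (ball (0 : V) 1)) * (ENNReal.ofReal ((1 + t) / t) ^ l *
         ENNReal.ofReal (2 * t) ^ Module.finrank ℝ V) := by ring
    _ = _ := by rw [ENNReal.inv_mul_cancel h0 ht', one_mul]

lemma frost_sig : Frost (sig V) (2 ^ (Module.finrank ℝ V + 1)) (Module.finrank ℝ V - 1) := by
  intro x t ht
  rcases le_total 1 t with h | h
  · refine prob_le_one.trans ?_
    have h1 : (1 : ℝ≥0∞) ≤ 2 ^ (Module.finrank ℝ V + 1) := one_le_pow₀ (by norm_num)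
    have h2 : (1 : ℝ≥0∞) ≤ ENNReal.ofReal t ^ (Module.finrank ℝ V - 1) :=
      one_le_pow₀ (by simpa using h)
    exact one_le_mul h1 h2
  · have h2 : Module.finrank ℝ (Submodule.span ℝ ({x} : Set V)) ≤ 1 := by
      simpa using finrank_span_le_card (R := ℝ) ({x} : Set V)
    refine le_trans (measure_mono fun s hs => ?_) ((sig_tube _ h2 ht).trans ?_)
    · exact (dW_le _ s x (Submodule.mem_span_singleton_self x)).trans (mem_ball_iff_norm.1 hs).le
    · obtain ⟨n, hn⟩ : ∃ n, Module.finrank ℝ V = n + 1 :=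
        ⟨Module.finrank ℝ V - 1, by have := Module.finrank_pos (R := ℝ) (M := V); omega⟩
      rw [hn, Nat.add_sub_cancel, pow_one, ← ENNReal.ofReal_ofNat 2,
        ← ENNReal.ofReal_pow (by positivity), ← ENNReal.ofReal_pow (by positivity),
        ← ENNReal.ofReal_pow (by positivity), ← ENNReal.ofReal_mul (by positivity),
        ← ENNReal.ofReal_mul (by positivity)]
      refine ENNReal.ofReal_le_ofReal ?_
      calc (1 + t) / t * (2 * t) ^ (n + 1) = (1 + t) * (2 ^ (n + 1) * t ^ n) := by
            rw [mul_pow]; field_simp; ring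
        _ ≤ 2 * (2 ^ (n + 1) * t ^ n) := by gcongr; linarith
        _ = _ := by ring

lemma sig_preimage (R : V ≃ₗᵢ[ℝ] V) {S : Set V} (hS : MeasurableSet S) :
    sig V (R ⁻¹' S) = sig V S := by
  rw [sig_apply hS, sig_apply (R.continuous.measurable hS)]
  congr 1
  have h1 : Ioo (0 : ℝ) 1 • (sphere (0 : V) 1 ∩ R ⁻¹' S) =
      R ⁻¹' (Ioo (0 : ℝ) 1 • (sphere (0 : V) 1 ∩ S)) := by
    ext v
    constructor
    · rintro ⟨r, hr, s, ⟨hs1, hs2⟩, rfl⟩
      refine ⟨r, hr, R s, ⟨by simpa using hs1, hs2⟩, by simp⟩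
    · rintro ⟨r, hr, s, ⟨hs1, hs2⟩, h⟩
      refine ⟨r, hr, R.symm s, ⟨by simpa using hs1, by simpa using hs2⟩, ?_⟩
      apply R.injective
      simpa using h
  rw [h1]
  exact R.measurePreserving.measure_preimage_emb R.toHomeomorph.measurableEmbedding _

lemma reflect {T : ℕ} (X : Fin T → V) (f : (Fin T → ℝ) → V) {ε : ℝ} (hε : 0 < ε)
    (hA : MeasurableSet {s : V | ‖f (obs X s) - s‖ ≤ ε}) :
    2 * sig V {s | ‖f (obs X s) - s‖ ≤ ε} ≤
      1 + ENNReal.ofReal ((1 + ε) / ε) ^ T * ENNReal.ofReal (2 * ε) ^ Module.finrank ℝ V := by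
  set A := {s : V | ‖f (obs X s) - s‖ ≤ ε} with hAdef
  let W : Submodule ℝ V := Submodule.span ℝ (range X)
  have hW : Module.finrank ℝ W ≤ T := by
    simpa [Set.finrank] using finrank_range_le_card (R := ℝ) X
  let R := W.reflection
  have hobs : ∀ s, obs X (R s) = obs X s := by
    intro s
    ext a
    have hX : R (X a) = X a :=
      Submodule.reflection_mem_subspace_eq_self (Submodule.subset_span ⟨a, rfl⟩)
    simp only [obs]
    conv_lhs => rw [← hX]
    exact R.inner_map_map _ _
  have h1 : A ∩ R ⁻¹' A ⊆ {s | dW W s ≤ ε} := by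
    rintro s ⟨hs1, hs2⟩
    have e1 : ‖f (obs X s) - s‖ ≤ ε := hs1
    have e2 : ‖f (obs X (R s)) - R s‖ ≤ ε := hs2
    rw [hobs] at e2
    have e3 : (2 : ℝ) • (s - W.starProjection s) = (f (obs X s) - R s) - (f (obs X s) - s) := by
      simp only [R, Submodule.reflection_apply]
      rw [two_smul, two_smul]; abel
    have e4 := norm_sub_le (f (obs X s) - R s) (f (obs X s) - s)
    rw [← e3, norm_smul] at e4
    show ‖s - W.starProjection s‖ ≤ ε
    simp only [Real.norm_ofNat] at e4
    linarith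
  calc 2 * sig V A = sig V A + sig V (R ⁻¹' A) := by rw [sig_preimage R hA, two_mul]
    _ = sig V (A ∪ R ⁻¹' A) + sig V (A ∩ R ⁻¹' A) :=
        (measure_union_add_inter A (R.continuous.measurable hA)).symm
    _ ≤ _ := add_le_add prob_le_one ((measure_mono h1).trans (sig_tube W hW hε))

lemma frost_cap {α : ℕ} (hα : α ≤ Module.finrank ℝ V - 1) (x₀ : V) {ε : ℝ} (hε : 0 < ε) :
    Frost ((sig V).withDensity ((closedBall x₀ ε).indicator 1))
      (2 ^ (Module.finrank ℝ V + 1) * ENNReal.ofReal (2 * ε) ^ (Module.finrank ℝ V - 1 - α)) α := by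
  intro x t ht
  rw [withDensity_indicator_one measurableSet_closedBall, Measure.restrict_apply measurableSet_ball]
  have e : Module.finrank ℝ V - 1 = (Module.finrank ℝ V - 1 - α) + α := by omega
  rcases le_total t (2 * ε) with h | h
  · refine (measure_mono inter_subset_left).trans ((frost_sig x t ht).trans ?_)
    conv_lhs => rw [e, pow_add _ _ α, ← mul_assoc]
    gcongr
  · refine (measure_mono (inter_subset_right.trans (closedBall_subset_ball
      (by linarith : ε < 2 * ε)))).trans ((frost_sig x₀ _ (by positivity)).trans ?_)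
    conv_lhs => rw [e, pow_add _ _ α, ← mul_assoc]
    gcongr

end Crest.Agent.R322
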