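import Crest.Agent.R322.Run
import Crest.Agent.R322.Sph

/-! Two upper bounds for the success probability of an abstract seeded learner. -/

set_option autoImplicit false

namespace Crest.Agent.R322

open MeasureTheory Metric Set ProbabilityTheory Filter Topology
open scoped ENNReal RealInnerProductSpace

variable {V : Type*} [NormedAddCommGroup V] [InnerProductSpace ℝ V] [FiniteDimensional ℝ V]
  [MeasurableSpace V] [BorelSpace V]
variable {S : Type*} [MeasurableSpace S] [MeasurableSingletonClass S] [Countable S]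
variable {Ω : Type*} [MeasurableSpace Ω]

/-- the success event -/
def succSet (step : Ω → ℕ → S → V → ℝ → S) (init : Ω → S) (out : Ω → S → V) (T : ℕ) (ε : ℝ) :
    Set (V × Ω × (Fin T → V)) :=
  {p | ‖out p.2.1 (runFrom (step p.2.1) T 0 (init p.2.1) p.2.2 (obs p.2.2 p.1)) - p.1‖ ≤ ε}

variable {step : Ω → ℕ → S → V → ℝ → S} {init : Ω → S} {out : Ω → S → V}

lemma measurableSet_succSet
    (h : ∀ t st, Measurable fun p : Ω × V × ℝ => step p.1 t st p.2.1 p.2.2)
    (hi : Measurable init) (ho : ∀ q, Measurable fun ω => out ω q) (T : ℕ) (ε : ℝ) :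
    MeasurableSet (succSet step init out T ε) := by
  have h1 : Measurable fun p : V × Ω × (Fin T → V) =>
      runFrom (step p.2.1) T 0 (init p.2.1) p.2.2 (obs p.2.2 p.1) :=
    (measurable_runFrom step h T 0).comp
      (f := fun p : V × Ω × (Fin T → V) => (init p.2.1, p.2.1, p.2.2, obs p.2.2 p.1))
      (by fun_prop)
  have h2 : Measurable fun p : Ω × S => out p.1 p.2 := measurable_from_prod_countable_left ho
  have h3 : Measurable fun p : V × Ω × (Fin T → V) =>
      out p.2.1 (runFrom (step p.2.1) T 0 (init p.2.1) p.2.2 (obs p.2.2 p.1)) :=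
    h2.comp (f := fun p : V × Ω × (Fin T → V) =>
      (p.2.1, runFrom (step p.2.1) T 0 (init p.2.1) p.2.2 (obs p.2.2 p.1)))
      (Measurable.prodMk (by fun_prop) h1)
  exact measurableSet_le (h3.sub measurable_fst).norm measurable_const

variable [Nontrivial V]

lemma succ_le_reflect (ρ : Measure Ω) [IsProbabilityMeasure ρ]
    (h : ∀ t st, Measurable fun p : Ω × V × ℝ => step p.1 t st p.2.1 p.2.2)
    (hi : Measurable init) (ho : ∀ q, Measurable fun ω => out ω q) (T : ℕ) {ε : ℝ} (hε : 0 < ε) :
    2 * ((sig V).prod (ρ.prod (gam V T))) (succSet step init out T ε) ≤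
      1 + ENNReal.ofReal ((1 + ε) / ε) ^ T * ENNReal.ofReal (2 * ε) ^ Module.finrank ℝ V := by
  have hm := measurableSet_succSet h hi ho T ε
  rw [Measure.prod_apply_symm hm, ← lintegral_const_mul _ (measurable_measure_prodMk_right hm)]
  refine (lintegral_mono (g := fun _ => _) fun p => ?_).trans (le_of_eq (by
    rw [lintegral_const, measure_univ, mul_one]))
  exact reflect p.2 (fun y => out p.1 (runFrom (step p.1) T 0 (init p.1) p.2 y)) hε
    (measurable_prodMk_right hm)

omit [Nontrivial V] in
lemma sig_ball : sig V (ball (0 : V) 2)ᶜ = 0 := by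
  rw [sig, Measure.map_apply measurable_subtype_coe measurableSet_ball.compl]
  have : ((↑) : sphere (0 : V) 1 → V) ⁻¹' (ball (0 : V) 2)ᶜ = ∅ := by
    ext s
    simp
  rw [this, measure_empty]

lemma succ_le_frost (ρ : Measure Ω) [IsProbabilityMeasure ρ]
    (h : ∀ t st, Measurable fun p : Ω × V × ℝ => step p.1 t st p.2.1 p.2.2)
    (hi : Measurable init) (ho : ∀ q, Measurable fun ω => out ω q) {ε : ℝ} (hε : 0 < ε)
    {k : ℕ} (hk : 2 * k + 1 ≤ Module.finrank ℝ V - 1) {D : ℝ≥0∞} (hD0 : D ≠ 0) (hDt : D ≠ ∞)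
    (hreach : ∀ ω, ∀ b ≤ k, ∀ t st, ∃ F : Finset S, (F.card : ℝ≥0∞) ≤ D ^ k ∧
      ∀ X y, runFrom (step ω) b t st X y ∈ F) {T m : ℕ} (hT : T ≤ m * k) :
    ((sig V).prod (ρ.prod (gam V T))) (succSet step init out T ε) ≤
      (2 ^ (Module.finrank ℝ V + 1) *
        ENNReal.ofReal (2 * ε) ^ (Module.finrank ℝ V - 1 - (2 * k + 1))) *
      (1 + D * 2 ^ (8 * k + 3 + Module.finrank ℝ V)) ^ m * ENNReal.ofReal 2 ^ (2 * k + 1) := by
  have hm := measurableSet_succSet h hi ho T ε
  have hI : Measurable ((succSet step init out T ε).indicator (1 : V × Ω × (Fin T → V) → ℝ≥0∞)) :=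
    measurable_one.indicator hm
  let g : Ω → S → V → ℝ≥0∞ := fun ω q => (closedBall (out ω q) ε).indicator 1
  have hg : ∀ ω q, Measurable (g ω q) := fun ω q => measurable_one.indicator measurableSet_closedBall
  have hg1 : ∀ ω q s, g ω q s ≤ 1 := fun ω q s => indicator_le_self _ _ _
  have hst : ∀ ω t st, Measurable fun p : V × ℝ => step ω t st p.1 p.2 := fun ω t st =>
    (h t st).comp (f := fun p : V × ℝ => (ω, p)) (by fun_prop)
  calc _ = ∫⁻ s, ∫⁻ ω, ∫⁻ X, (succSet step init out T ε).indicator 1 (s, ω, X)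
          ∂(gam V T) ∂ρ ∂(sig V) := by
        rw [← lintegral_indicator_one hm, lintegral_prod _ hI.aemeasurable]
        refine lintegral_congr fun s => ?_
        rw [lintegral_prod _ (by fun_prop)]
    _ = ∫⁻ ω, ∫⁻ s, ∫⁻ X, (succSet step init out T ε).indicator 1 (s, ω, X)
          ∂(gam V T) ∂(sig V) ∂ρ := by
        refine lintegral_lintegral_swap (Measurable.aemeasurable ?_)
        have : Measurable fun p : (V × Ω) × (Fin T → V) =>
            (succSet step init out T ε).indicator (1 : V × Ω × (Fin T → V) → ℝ≥0∞)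
              (p.1.1, p.1.2, p.2) := by fun_prop
        exact this.lintegral_prod_right'
    _ = ∫⁻ ω, ((sig V).withDensity (U (step ω) (g ω) T 0 (init ω))) (ball 0 2) ∂ρ := by
        refine lintegral_congr fun ω => ?_
        rw [withDensity_apply _ measurableSet_ball,
          Measure.restrict_eq_self_of_ae_mem (s := ball 0 2) (sig_ball (V := V))]
        refine lintegral_congr fun s => lintegral_congr fun X => ?_
        simp only [g, indicator, succSet, mem_ofPred_eq, mem_closedBall, dist_eq_norm', Pi.one_apply]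
    _ ≤ ∫⁻ _, _ ∂ρ := lintegral_mono fun ω =>
        frost_U (hst ω) (sig V) hD0 hDt (hreach ω) (hg ω) (hg1 ω)
          (mul_ne_zero (by positivity) (pow_ne_zero _ (by simpa using hε))) (by finiteness)
          (fun q => frost_cap hk (out ω q) hε) m T hT 0 (init ω) 0 2 two_pos
    _ = _ := by rw [lintegral_const, measure_univ, mul_one]

end Crest.Agent.R322
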